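import Vale.Agent.Lib.P329.Basic

/-!
# Languages recognized by finite aperiodic monoids are star-free

Schutzenberger's theorem, by the local divisor technique (Diekert-Kufleitner): for a non-unit `c`
of a finite aperiodic monoid `M`, the set `cM ∩ Mc` with the product `(c a) ∘ (c a') = c a a'` and
unit `c` is a smaller aperiodic monoid.  Words are cut at the letter `x` with image `c`, the factors
between two occurrences of `x` become letters of a new alphabet.
-/

namespace Vale.Agent.Lib.P329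

universe u

section LocalDivisor

variable {M : Type u} [Monoid M]

/-- The local divisor of `M` at `c`: the set `cM ∩ Mc`. -/
def LocalDiv (c : M) : Type u := {z : M // (∃ a, z = c * a) ∧ (∃ b, z = b * c)}

namespace LocalDiv

variable {c : M}

noncomputable instance : Mul (LocalDiv c) :=
  ⟨fun z z' => ⟨z.1 * Classical.choose z'.2.1, by
    obtain ⟨⟨a, ha⟩, ⟨b, hb⟩⟩ := z.2
    obtain ⟨b', hb'⟩ := z'.2.2
    have h' := Classical.choose_spec z'.2.1
    refine ⟨⟨a * Classical.choose z'.2.1, by rw [ha, mul_assoc]⟩, ⟨b * b', ?_⟩⟩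
    rw [hb, mul_assoc, ← h', hb', mul_assoc]⟩⟩

theorem mul_val (z z' : LocalDiv c) {a' : M} (h : z'.1 = c * a') : (z * z').1 = z.1 * a' := by
  change z.1 * Classical.choose z'.2.1 = z.1 * a'
  obtain ⟨b, hb⟩ := z.2.2
  have h' := Classical.choose_spec z'.2.1
  rw [hb, mul_assoc, ← h', h, mul_assoc]

instance : One (LocalDiv c) := ⟨⟨c, ⟨1, by simp⟩, ⟨1, by simp⟩⟩⟩

@[simp] theorem one_val : (1 : LocalDiv c).1 = c := rfl

theorem ext' {z z' : LocalDiv c} (h : z.1 = z'.1) : z = z' := Subtype.ext h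

noncomputable instance : Monoid (LocalDiv c) where
  mul_assoc z z' z'' := by
    obtain ⟨a', ha'⟩ := z'.2.1
    obtain ⟨a'', ha''⟩ := z''.2.1
    apply ext'
    rw [mul_val _ _ ha'', mul_val _ _ ha', mul_assoc,
      mul_val z (z' * z'') (a' := a' * a'') (by rw [mul_val _ _ ha'', ha', mul_assoc])]
  one_mul z := by
    obtain ⟨a, ha⟩ := z.2.1
    apply ext'
    rw [mul_val _ _ ha, one_val, ← ha]
  mul_one z := by
    apply ext'
    rw [mul_val _ _ (a' := 1) (by simp), mul_one]

/-- The image of a letter of the new alphabet. -/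
def psi (c t : M) : LocalDiv c := ⟨c * t * c, ⟨t * c, by simp [mul_assoc]⟩, ⟨c * t, rfl⟩⟩

/-- The value in `M` of a word of the new alphabet. -/
def value (c : M) : List M → M
  | [] => c
  | t :: v => c * t * value c v

theorem prod_psi (c : M) (v : List M) : ((v.map (psi c)).prod).1 = value c v := by
  induction v with
  | nil => rfl
  | cons t v ih =>
    simp only [List.map_cons, List.prod_cons, value]
    obtain ⟨a, ha⟩ := ((v.map (psi c)).prod).2.1
    rw [mul_val _ _ ha, ← ih, ha]
    simp [psi, mul_assoc]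

theorem pow_val (z : LocalDiv c) {a : M} (ha : z.1 = c * a) (n : ℕ) :
    (z ^ (n + 1)).1 = c * a ^ (n + 1) := by
  induction n with
  | zero => simpa using ha
  | succ n ih =>
    rw [pow_succ z (n + 1), mul_val _ _ ha, ih, pow_succ a (n + 1), mul_assoc]

theorem aperiodic (hM : ∀ m : M, ∃ n : ℕ, m ^ n = m ^ (n + 1)) (z : LocalDiv c) :
    ∃ n : ℕ, z ^ n = z ^ (n + 1) := by
  obtain ⟨a, ha⟩ := z.2.1
  obtain ⟨n, hn⟩ := hM a
  refine ⟨n + 1, ext' ?_⟩
  rw [pow_val z ha, pow_val z ha, pow_succ a n, hn, ← pow_succ]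

theorem card_lt [Finite M] (hc : ¬ IsUnit c) : Nat.card (LocalDiv c) < Nat.card M := by
  refine Finite.card_subtype_lt (x := (1 : M)) ?_
  rintro ⟨⟨a, ha⟩, ⟨b, hb⟩⟩
  apply hc
  have hab : b = a := by
    calc b = b * (c * a) := by rw [← ha, mul_one]
      _ = (b * c) * a := by rw [mul_assoc]
      _ = a := by rw [← hb, one_mul]
  subst hab
  exact isUnit_iff_exists.2 ⟨b, ha.symm, hb.symm⟩

end LocalDiv

end LocalDivisor

section Encoding

variable {α : Type u} {M : Type u} [Monoid M]

/-- The value of a word. -/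
def phi (g : α → M) (w : List α) : M := (w.map g).prod

theorem phi_psi (c : M) (v : List M) : (phi (LocalDiv.psi c) v).1 = LocalDiv.value c v :=
  LocalDiv.prod_psi c v

@[simp] theorem phi_nil (g : α → M) : phi g [] = 1 := rfl

@[simp] theorem phi_cons (g : α → M) (a : α) (w : List α) : phi g (a :: w) = g a * phi g w := by
  simp [phi]

@[simp] theorem phi_append (g : α → M) (u v : List α) : phi g (u ++ v) = phi g u * phi g v := by
  simp [phi]

variable (g : α → M) (x : α) (Γ : α → Prop)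

/-- Coding of words `u₁ x u₂ x ... u_k x`, with factors `uᵢ` over `Γ`, by the word
`phi u₁, ..., phi u_k` over the alphabet `M`. -/
inductive Enc : List α → List M → Prop
  | nil : Enc [] []
  | step (u w : List α) (v : List M) : (∀ a ∈ u, Γ a) → Enc w v → Enc (u ++ x :: w) (phi g u :: v)

variable {g x Γ}

theorem append_cons_inj {u₁ u₂ w₁ w₂ : List α} (h₁ : x ∉ u₁) (h₂ : x ∉ u₂)
    (h : u₁ ++ x :: w₁ = u₂ ++ x :: w₂) : u₁ = u₂ ∧ w₁ = w₂ := by
  induction u₁ generalizing u₂ with
  | nil =>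
    cases u₂ with
    | nil => simpa using h
    | cons b u₂ =>
      simp only [List.nil_append, List.cons_append, List.cons.injEq] at h
      exact absurd (h.1 ▸ List.mem_cons_self) h₂
  | cons a u₁ ih =>
    cases u₂ with
    | nil =>
      simp only [List.nil_append, List.cons_append, List.cons.injEq] at h
      exact absurd (h.1 ▸ List.mem_cons_self) h₁
    | cons b u₂ =>
      simp only [List.cons_append, List.cons.injEq] at h
      obtain ⟨rfl, h⟩ := h
      obtain ⟨rfl, rfl⟩ := ih (fun h' => h₁ (List.mem_cons_of_mem _ h'))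
        (fun h' => h₂ (List.mem_cons_of_mem _ h')) h
      exact ⟨rfl, rfl⟩

theorem not_mem_of_forall (hx : ¬ Γ x) {u : List α} (hu : ∀ a ∈ u, Γ a) : x ∉ u :=
  fun h => hx (hu x h)

theorem Enc.inv {w : List α} {v : List M} (h : Enc g x Γ w v) :
    (w = [] ∧ v = []) ∨ ∃ u w₁ v₁, w = u ++ x :: w₁ ∧ v = phi g u :: v₁ ∧ (∀ a ∈ u, Γ a) ∧
      Enc g x Γ w₁ v₁ := by
  cases h with
  | nil => exact Or.inl ⟨rfl, rfl⟩
  | step u w v hu hw => exact Or.inr ⟨u, w, v, rfl, rfl, hu, hw⟩

theorem Enc.unique (hx : ¬ Γ x) {w : List α} {v v' : List M} (h : Enc g x Γ w v)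
    (h' : Enc g x Γ w v') : v = v' := by
  induction h generalizing v' with
  | nil =>
    rcases h'.inv with ⟨_, rfl⟩ | ⟨u, w₁, v₁, h, _⟩
    · rfl
    · simp at h
  | step u w v hu hw ih =>
    rcases h'.inv with ⟨h, _⟩ | ⟨u', w₁, v₁, heq, rfl, hu', hw'⟩
    · simp at h
    · obtain ⟨rfl, rfl⟩ := append_cons_inj (not_mem_of_forall hx hu)
        (not_mem_of_forall hx hu') heq
      rw [ih hw']

theorem Enc.append {w w' : List α} {v v' : List M} (h : Enc g x Γ w v) (h' : Enc g x Γ w' v') :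
    Enc g x Γ (w ++ w') (v ++ v') := by
  induction h with
  | nil => simpa using h'
  | step u w v hu hw ih =>
    have := Enc.step u (w ++ w') (v ++ v') hu ih
    simpa using this

theorem Enc.split {w : List α} {v₁ v₂ : List M} (h : Enc g x Γ w (v₁ ++ v₂)) :
    ∃ w₁ w₂, w = w₁ ++ w₂ ∧ Enc g x Γ w₁ v₁ ∧ Enc g x Γ w₂ v₂ := by
  induction v₁ generalizing w with
  | nil => exact ⟨[], w, rfl, Enc.nil, by simpa using h⟩
  | cons t v₁ ih =>
    cases h with
    | step u w v hu hw =>
      obtain ⟨w₁, w₂, rfl, h₁, h₂⟩ := ih hw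
      exact ⟨u ++ x :: w₁, w₂, by simp, Enc.step u w₁ v₁ hu h₁, h₂⟩

theorem Enc.mem {w : List α} {v : List M} (h : Enc g x Γ w v) : ∀ a ∈ w, Γ a ∨ a = x := by
  induction h with
  | nil => simp
  | step u w v hu hw ih =>
    intro a ha
    rcases List.mem_append.1 ha with ha | ha
    · exact Or.inl (hu a ha)
    · rcases List.mem_cons.1 ha with rfl | ha
      · exact Or.inr rfl
      · exact ih a ha

theorem Enc.value {w : List α} {v : List M} (h : Enc g x Γ w v) :
    g x * phi g w = LocalDiv.value (g x) v := by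
  induction h with
  | nil => simp [LocalDiv.value]
  | step u w v hu hw ih =>
    simp only [LocalDiv.value, phi_append, phi_cons, ← ih]
    simp only [mul_assoc]

theorem enc_decomp {w : List α} (hw : ∀ a ∈ w, Γ a ∨ a = x) :
    ∃ mid v u, w = mid ++ u ∧ Enc g x Γ mid v ∧ ∀ a ∈ u, Γ a := by
  induction w with
  | nil => exact ⟨[], [], [], rfl, Enc.nil, by simp⟩
  | cons b w ih =>
    obtain ⟨mid, v, u, rfl, hmid, hu⟩ := ih (fun a ha => hw a (List.mem_cons_of_mem _ ha))
    rcases hw b List.mem_cons_self with hb | rfl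
    · cases hmid with
      | nil =>
        refine ⟨[], [], b :: u, rfl, Enc.nil, ?_⟩
        intro a ha
        rcases List.mem_cons.1 ha with rfl | ha
        · exact hb
        · exact hu a ha
      | step u₁ w₁ v₁ hu₁ hw₁ =>
        refine ⟨(b :: u₁) ++ x :: w₁, _, u, by simp, Enc.step (b :: u₁) w₁ v₁ ?_ hw₁, hu⟩
        intro a ha
        rcases List.mem_cons.1 ha with rfl | ha
        · exact hb
        · exact hu₁ a ha
    · exact ⟨[] ++ b :: mid, _, u, by simp, Enc.step [] mid v (by simp) hmid, hu⟩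

theorem Enc.last {w : List α} {v : List M} (h : Enc g x Γ w v) : w = [] ∨ ∃ y, w = y ++ [x] := by
  induction h with
  | nil => exact Or.inl rfl
  | step u w v _ _ ih =>
    right
    rcases ih with rfl | ⟨y, rfl⟩
    · exact ⟨u, rfl⟩
    · exact ⟨u ++ x :: y, by simp⟩

theorem enc_dom (hx : ¬ Γ x) {w : List α} :
    (∃ v, Enc g x Γ w v) ↔ (∀ a ∈ w, Γ a ∨ a = x) ∧ (w = [] ∨ ∃ y, w = y ++ [x]) := by
  constructor
  · rintro ⟨v, h⟩
    exact ⟨h.mem, h.last⟩
  · rintro ⟨h, hw⟩
    obtain ⟨mid, v, u, rfl, hmid, hu⟩ := enc_decomp (g := g) h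
    rcases hw with hw | ⟨y, hy⟩
    · simp only [List.append_eq_nil_iff] at hw
      obtain ⟨rfl, rfl⟩ := hw
      exact ⟨v, hmid⟩
    · cases u using List.reverseRecOn with
      | nil => exact ⟨v, by simpa using hmid⟩
      | append_singleton u b _ =>
        have : b = x := by
          have h2 : (mid ++ (u ++ [b])).getLast? = (y ++ [x]).getLast? := by rw [hy]
          rw [← List.append_assoc] at h2
          simpa using h2
        subst this
        exact absurd (hu b (by simp)) hx

/-- The words with a code form a star-free language. -/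
theorem gsh_enc_dom [Finite α] (hx : ¬ Γ x) : Gsh 0 (fun w => ∃ v, Enc g x Γ w v) := by
  have h : Gsh 0 (fun w : List α => (∀ a ∈ w, Γ a ∨ a = x) ∧ (w = [] ∨ ∃ y, w = y ++ [x])) := by
    refine (Gsh.subalphabet _).and (Gsh.or Gsh.eps ?_)
    refine (Gsh.top.concat (Gsh.letter x)).congr (fun w => ?_)
    constructor
    · rintro ⟨u, v, rfl, _, rfl⟩
      exact ⟨u, rfl⟩
    · rintro ⟨y, rfl⟩
      exact ⟨y, [x], rfl, trivial, rfl⟩
  exact h.congr (fun w => (enc_dom hx).symm)

/-- Lifting of star-free expressions over the new alphabet through the coding. -/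
theorem gsh_lift [Finite α] (hx : ¬ Γ x)
    (hΓ : ∀ t, Gsh 0 (fun u => (∀ a ∈ u, Γ a) ∧ phi g u = t)) (e : GRE M) (he : e.sh = 0) :
    Gsh 0 (fun w => ∃ v, Enc g x Γ w v ∧ v ∈ e.lang) := by
  induction e with
  | zero =>
    refine Gsh.bot.congr (fun w => ?_)
    simp [GRE.lang, Language.notMem_zero]
  | one =>
    refine Gsh.eps.congr (fun w => ?_)
    simp only [GRE.lang, Language.mem_one]
    constructor
    · rintro rfl
      exact ⟨[], Enc.nil, rfl⟩
    · rintro ⟨v, h, rfl⟩
      rcases h.inv with ⟨rfl, _⟩ | ⟨u, w₁, v₁, _, h, _⟩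
      · rfl
      · simp at h
  | lit t =>
    refine ((hΓ t).concat (Gsh.letter x)).congr (fun w => ?_)
    constructor
    · rintro ⟨u, v, rfl, ⟨hu, rfl⟩, rfl⟩
      exact ⟨[phi g u], Enc.step u [] [] hu Enc.nil, rfl⟩
    · rintro ⟨v, h, hv⟩
      have hv' : v = [t] := hv
      subst hv'
      rcases h.inv with ⟨_, h⟩ | ⟨u, w₁, v₁, rfl, h, hu, hw₁⟩
      · simp at h
      · simp only [List.cons.injEq] at h
        obtain ⟨rfl, rfl⟩ := h
        rcases hw₁.inv with ⟨rfl, _⟩ | ⟨u', w', v', _, h, _⟩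
        · exact ⟨u, [x], rfl, ⟨hu, rfl⟩, rfl⟩
        · simp at h
  | add P Q ihP ihQ =>
    simp only [GRE.sh, Nat.max_eq_zero_iff] at he
    refine ((ihP he.1).or (ihQ he.2)).congr (fun w => ?_)
    simp only [GRE.lang, Language.mem_add]
    constructor
    · rintro (⟨v, h, hv⟩ | ⟨v, h, hv⟩)
      · exact ⟨v, h, Or.inl hv⟩
      · exact ⟨v, h, Or.inr hv⟩
    · rintro ⟨v, h, hv | hv⟩
      · exact Or.inl ⟨v, h, hv⟩
      · exact Or.inr ⟨v, h, hv⟩
  | mul P Q ihP ihQ =>
    simp only [GRE.sh, Nat.max_eq_zero_iff] at he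
    refine ((ihP he.1).concat (ihQ he.2)).congr (fun w => ?_)
    simp only [GRE.lang, Language.mem_mul]
    constructor
    · rintro ⟨w₁, w₂, rfl, ⟨v₁, h₁, hv₁⟩, ⟨v₂, h₂, hv₂⟩⟩
      exact ⟨v₁ ++ v₂, h₁.append h₂, v₁, hv₁, v₂, hv₂, rfl⟩
    · rintro ⟨v, h, v₁, hv₁, v₂, hv₂, rfl⟩
      obtain ⟨w₁, w₂, rfl, h₁, h₂⟩ := h.split
      exact ⟨w₁, w₂, rfl, ⟨v₁, h₁, hv₁⟩, ⟨v₂, h₂, hv₂⟩⟩
  | compl P ihP =>
    simp only [GRE.sh] at he
    refine ((gsh_enc_dom (g := g) hx).and (ihP he).not).congr (fun w => ?_)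
    constructor
    · rintro ⟨⟨v, h⟩, hn⟩
      exact ⟨v, h, fun hv => hn ⟨v, h, hv⟩⟩
    · rintro ⟨v, h, hv⟩
      refine ⟨⟨v, h⟩, ?_⟩
      rintro ⟨v', h', hv'⟩
      rw [h.unique hx h'] at hv
      exact hv hv'
  | star P _ =>
    simp [GRE.sh] at he

end Encoding

/-- **Schutzenberger's theorem**, with monoid and alphabet in one universe. -/
theorem gsh_prod_aux (n : ℕ) : ∀ (M : Type u) [Monoid M] [Finite M],
    (∀ m : M, ∃ k : ℕ, m ^ k = m ^ (k + 1)) → Nat.card M = n → ∀ (α : Type u) [Finite α]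
    (g : α → M) (m : M), Gsh 0 (fun w : List α => phi g w = m) := by
  induction' n using Nat.strong_induction_on with n IH
  intro M _ _ hM hn α _ g m
  classical
  haveI := Fintype.ofFinite α
  suffices h : ∀ Γ : Finset α, ∀ m : M, Gsh 0 (fun w : List α => (∀ a ∈ w, a ∈ Γ) ∧ phi g w = m) by
    exact (h Finset.univ m).congr (by simp)
  intro Γ
  induction Γ using Finset.strongInduction with
  | H Γ ihΓ =>
    intro m
    by_cases hall : ∀ a ∈ Γ, IsUnit (g a)
    · -- all letters have image one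
      have h1 : ∀ a ∈ Γ, g a = 1 := by
        intro a ha
        obtain ⟨k, hk⟩ := hM (g a)
        have hu := (hall a ha).pow k
        exact hu.mul_right_inj.1 (by rw [← pow_succ, ← hk, mul_one])
      have h2 : ∀ w : List α, (∀ a ∈ w, a ∈ Γ) → phi g w = 1 := by
        intro w hw
        induction w with
        | nil => rfl
        | cons a w ih =>
          rw [phi_cons, h1 a (hw a List.mem_cons_self), one_mul]
          exact ih (fun b hb => hw b (List.mem_cons_of_mem _ hb))
      refine ((Gsh.subalphabet (fun a => a ∈ Γ)).and (Gsh.const ((1 : M) = m))).congr (fun w => ?_)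
      constructor
      · rintro ⟨hw, h⟩
        exact ⟨hw, by rw [h2 w hw, h]⟩
      · rintro ⟨hw, h⟩
        exact ⟨hw, by rw [← h, h2 w hw]⟩
    · push_neg at hall
      obtain ⟨x, hxΓ, hxu⟩ := hall
      set c := g x with hc
      have hΓ' : ∀ t, Gsh 0 (fun u : List α => (∀ a ∈ u, a ∈ Γ.erase x) ∧ phi g u = t) :=
        ihΓ (Γ.erase x) (Finset.erase_ssubset hxΓ)
      -- the local divisor
      have hcard : Nat.card (LocalDiv c) < n := hn ▸ LocalDiv.card_lt hxu
      haveI : Finite (LocalDiv c) := Subtype.finite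
      have hZ : ∀ z : LocalDiv c, Gsh 0 (fun v : List M => phi (LocalDiv.psi c) v = z) :=
        fun z => IH _ hcard (LocalDiv c) (LocalDiv.aperiodic hM) rfl M (LocalDiv.psi c) z
      have hx' : ¬ (fun a => a ∈ Γ.erase x) x := by simp
      have hB : ∀ z : LocalDiv c, Gsh 0 (fun w : List α =>
          ∃ v, Enc g x (fun a => a ∈ Γ.erase x) w v ∧ phi (LocalDiv.psi c) v = z) := by
        intro z
        obtain ⟨e, he, hw⟩ := hZ z
        have := gsh_lift (g := g) hx' hΓ' e (by omega)
        refine this.congr (fun w => ?_)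
        simp only [hw]
      have hmain : Gsh 0 (fun w : List α => ((∀ a ∈ w, a ∈ Γ.erase x) ∧ phi g w = m) ∨
          ∃ (p : M) (q : M) (z : LocalDiv c), (p * z.1 * q = m) ∧
            ∃ u r, w = u ++ r ∧ ((∀ a ∈ u, a ∈ Γ.erase x) ∧ phi g u = p) ∧
              ∃ r', r = x :: r' ∧ ∃ mid u', r' = mid ++ u' ∧
                (∃ v, Enc g x (fun a => a ∈ Γ.erase x) mid v ∧ phi (LocalDiv.psi c) v = z) ∧
                ((∀ a ∈ u', a ∈ Γ.erase x) ∧ phi g u' = q)) := by
        refine (hΓ' m).or (Gsh.exists_finite fun p => Gsh.exists_finite fun q =>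
          Gsh.exists_finite fun z => (Gsh.const _).and ?_)
        exact (hΓ' p).concat (Gsh.cons x ((hB z).concat (hΓ' q)))
      have hmemΓ : ∀ a, (a ∈ Γ.erase x ∨ a = x) ↔ a ∈ Γ := by
        intro a
        constructor
        · rintro (h | rfl)
          · exact Finset.mem_of_mem_erase h
          · exact hxΓ
        · intro h
          by_cases hax : a = x
          · exact Or.inr hax
          · exact Or.inl (Finset.mem_erase.2 ⟨hax, h⟩)
      refine hmain.congr (fun w => ?_)
      constructor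
      · rintro (⟨hw, h⟩ | ⟨p, q, z, hm, u, r, rfl, ⟨hu, rfl⟩, r', rfl, mid, u', rfl,
          ⟨v, henc, rfl⟩, ⟨hu', rfl⟩⟩)
        · exact ⟨fun a ha => Finset.mem_of_mem_erase (hw a ha), h⟩
        · refine ⟨?_, ?_⟩
          · intro a ha
            simp only [List.mem_append, List.mem_cons] at ha
            rcases ha with ha | rfl | ha | ha
            · exact Finset.mem_of_mem_erase (hu a ha)
            · exact hxΓ
            · exact (hmemΓ a).1 (henc.mem a ha)
            · exact Finset.mem_of_mem_erase (hu' a ha)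
          · have hv : g x * phi g mid = LocalDiv.value c v := henc.value
            rw [← hm, phi_psi c v, ← hv]
            simp only [phi_append, phi_cons, mul_assoc]
      · rintro ⟨hw, h⟩
        obtain ⟨mid, v, u', rfl, hmid, hu'⟩ := enc_decomp (g := g) (x := x)
          (Γ := fun a => a ∈ Γ.erase x) (w := w) (fun a ha => (hmemΓ a).2 (hw a ha))
        rcases hmid.inv with ⟨rfl, rfl⟩ | ⟨u, w₁, v₁, rfl, rfl, hu, hw₁⟩
        · exact Or.inl ⟨by simpa using hu', by simpa using h⟩
        · refine Or.inr ⟨phi g u, phi g u', _, ?_, u, (x :: (w₁ ++ u')), by simp, ⟨hu, rfl⟩,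
            w₁ ++ u', rfl, w₁, u', rfl, ⟨v₁, hw₁, rfl⟩, ⟨hu', rfl⟩⟩
          have hv : g x * phi g w₁ = LocalDiv.value c v₁ := hw₁.value
          rw [← h, phi_psi c v₁, ← hv]
          simp only [phi_append, phi_cons, mul_assoc]

universe v

/-- A copy of `Fin n` in an arbitrary universe, without any algebraic structure. -/
structure Box (n : ℕ) : Type u where
  /-- The element of `Fin n`. -/
  val : Fin n

/-- **Schutzenberger's theorem**: the fibres of a morphism from words to a finite aperiodic monoid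
are star-free. -/
theorem gsh_prod {α : Type u} {M : Type v} [Monoid M] [Finite M] [Finite α]
    (hM : ∀ m : M, ∃ k : ℕ, m ^ k = m ^ (k + 1)) (g : α → M) (m : M) :
    Gsh 0 (fun w : List α => (w.map g).prod = m) := by
  obtain ⟨n, ⟨e⟩⟩ := Finite.exists_equiv_fin M
  let e₀ : Fin n ≃ Box.{u} n := ⟨Box.mk, Box.val, fun _ => rfl, fun _ => rfl⟩
  let e' : M ≃ Box.{u} n := e.trans e₀
  letI : Monoid (Box.{u} n) := e'.symm.monoid
  haveI : Finite (Box.{u} n) := Finite.of_equiv M e'
  let f : M ≃* Box.{u} n := (e'.symm.mulEquiv).symm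
  have hM' : ∀ m : Box.{u} n, ∃ k : ℕ, m ^ k = m ^ (k + 1) := by
    intro m
    obtain ⟨k, hk⟩ := hM (f.symm m)
    refine ⟨k, f.symm.injective ?_⟩
    rw [map_pow, map_pow]
    exact hk
  refine (gsh_prod_aux _ (Box.{u} n) hM' rfl α (fun a => f (g a)) (f m)).congr (fun w => ?_)
  have : phi (fun a => f (g a)) w = f ((w.map g).prod) := by
    rw [map_list_prod]
    simp [phi, Function.comp_def]
  rw [this]
  exact f.injective.eq_iff

end Vale.Agent.Lib.P329
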