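import Mathlib

/-!
# Generalized regular expressions and star height

`GRE α` are the generalized regular expressions over the alphabet `α` (constants, letters, union,
concatenation, complement in `α*`, Kleene star), `GRE.lang` their semantics, and `GRE.sh` their
star height.  We also prove the basic closure properties and the criterion for automata which are
partially ordered away from one base state.
-/

namespace Vale.Agent.Lib.P329

universe u v

/-- Generalized regular expressions over the alphabet `α`. -/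
inductive GRE (α : Type u) : Type u
  | zero : GRE α
  | one : GRE α
  | lit : α → GRE α
  | add : GRE α → GRE α → GRE α
  | mul : GRE α → GRE α → GRE α
  | compl : GRE α → GRE α
  | star : GRE α → GRE α

/-- The language denoted by a generalized regular expression: `0`, `1`, letters, union,
concatenation, complement in the set of all words, and Kleene star. -/
def GRE.lang {α : Type u} : GRE α → Language α
  | .zero => 0
  | .one => 1
  | .lit a => {[a]}
  | .add P Q => P.lang + Q.lang
  | .mul P Q => P.lang * Q.lang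
  | .compl P => (P.lang)ᶜ
  | .star P => KStar.kstar P.lang

/-- The star height of a generalized regular expression. -/
def GRE.sh {α : Type u} : GRE α → ℕ
  | .zero => 0
  | .one => 0
  | .lit _ => 0
  | .add P Q => max P.sh Q.sh
  | .mul P Q => max P.sh Q.sh
  | .compl P => P.sh
  | .star P => P.sh + 1

variable {α : Type u}

/-- The word predicate `P` is defined by an expression of star height at most `n`. -/
def Gsh (n : ℕ) (P : List α → Prop) : Prop :=
  ∃ e : GRE α, e.sh ≤ n ∧ ∀ w, w ∈ e.lang ↔ P w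

namespace Gsh

variable {n : ℕ} {P Q : List α → Prop}

theorem congr (h : Gsh n P) (hPQ : ∀ w, P w ↔ Q w) : Gsh n Q := by
  obtain ⟨e, he, hw⟩ := h
  exact ⟨e, he, fun w => (hw w).trans (hPQ w)⟩

theorem mono {m : ℕ} (hmn : m ≤ n) (h : Gsh m P) : Gsh n P := by
  obtain ⟨e, he, hw⟩ := h
  exact ⟨e, he.trans hmn, hw⟩

theorem bot : Gsh n (fun _ : List α => False) :=
  ⟨.zero, by simp [GRE.sh], fun w => by simp [GRE.lang, Language.notMem_zero]⟩

theorem eps : Gsh n (fun w : List α => w = []) :=
  ⟨.one, by simp [GRE.sh], fun w => by simp [GRE.lang, Language.mem_one]⟩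

theorem letter (a : α) : Gsh n (fun w : List α => w = [a]) :=
  ⟨.lit a, by simp [GRE.sh], fun w => by
    simp only [GRE.lang]
    exact Iff.rfl⟩

theorem or (h₁ : Gsh n P) (h₂ : Gsh n Q) : Gsh n (fun w => P w ∨ Q w) := by
  obtain ⟨e₁, he₁, hw₁⟩ := h₁
  obtain ⟨e₂, he₂, hw₂⟩ := h₂
  refine ⟨.add e₁ e₂, by simp [GRE.sh, he₁, he₂], fun w => ?_⟩
  simp only [GRE.lang, Language.mem_add, hw₁, hw₂]

theorem not (h : Gsh n P) : Gsh n (fun w => ¬ P w) := by
  obtain ⟨e, he, hw⟩ := h
  refine ⟨.compl e, by simpa [GRE.sh] using he, fun w => ?_⟩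
  simp only [GRE.lang]
  rw [← hw w]
  exact Iff.rfl

theorem top : Gsh n (fun _ : List α => True) :=
  (bot (n := n)).not.congr (by simp)

theorem and (h₁ : Gsh n P) (h₂ : Gsh n Q) : Gsh n (fun w => P w ∧ Q w) :=
  (h₁.not.or h₂.not).not.congr (fun w => by tauto)

theorem const (p : Prop) : Gsh n (fun _ : List α => p) := by
  by_cases hp : p
  · exact top.congr (by simp [hp])
  · exact bot.congr (by simp [hp])

theorem concat (h₁ : Gsh n P) (h₂ : Gsh n Q) :
    Gsh n (fun w => ∃ u v, w = u ++ v ∧ P u ∧ Q v) := by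
  obtain ⟨e₁, he₁, hw₁⟩ := h₁
  obtain ⟨e₂, he₂, hw₂⟩ := h₂
  refine ⟨.mul e₁ e₂, by simp [GRE.sh, he₁, he₂], fun w => ?_⟩
  simp only [GRE.lang, Language.mem_mul, hw₁, hw₂]
  constructor
  · rintro ⟨u, hu, v, hv, rfl⟩
    exact ⟨u, v, rfl, hu, hv⟩
  · rintro ⟨u, v, rfl, hu, hv⟩
    exact ⟨u, hu, v, hv, rfl⟩

theorem star (h : Gsh 0 P) :
    Gsh 1 (fun w => ∃ L : List (List α), w = L.flatten ∧ ∀ y ∈ L, P y) := by
  obtain ⟨e, he, hw⟩ := h
  refine ⟨.star e, by simp only [GRE.sh]; omega, fun w => ?_⟩
  simp only [GRE.lang, Language.mem_kstar, hw]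

theorem cons (a : α) (h : Gsh n P) : Gsh n (fun w => ∃ v, w = a :: v ∧ P v) :=
  ((letter (n := n) a).concat h).congr (fun w => by
    constructor
    · rintro ⟨u, v, rfl, rfl, hv⟩
      exact ⟨v, rfl, hv⟩
    · rintro ⟨v, rfl, hv⟩
      exact ⟨[a], v, rfl, rfl, hv⟩)

theorem exists_finset {ι : Type v} (s : Finset ι) {R : ι → List α → Prop}
    (h : ∀ i ∈ s, Gsh n (R i)) : Gsh n (fun w => ∃ i ∈ s, R i w) := by
  classical
  induction s using Finset.induction_on with
  | empty => exact bot.congr (by simp)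
  | insert a s ha ih =>
    refine ((h a (Finset.mem_insert_self a s)).or
      (ih fun i hi => h i (Finset.mem_insert_of_mem hi))).congr (fun w => ?_)
    simp

theorem exists_finite {ι : Type v} [Finite ι] {R : ι → List α → Prop}
    (h : ∀ i, Gsh n (R i)) : Gsh n (fun w => ∃ i, R i w) := by
  classical
  haveI := Fintype.ofFinite ι
  exact (exists_finset (Finset.univ : Finset ι) (fun i _ => h i)).congr (by simp)

theorem forall_finite {ι : Type v} [Finite ι] {R : ι → List α → Prop}
    (h : ∀ i, Gsh n (R i)) : Gsh n (fun w => ∀ i, R i w) :=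
  (exists_finite (fun i => (h i).not)).not.congr (by simp)

/-- Over a finite alphabet, the words over a given set of letters form a star-free language. -/
theorem subalphabet [Finite α] (Γ : α → Prop) : Gsh 0 (fun w : List α => ∀ a ∈ w, Γ a) := by
  have h : Gsh 0 (fun w : List α =>
      ∃ a, ∃ u v, w = u ++ v ∧ (∃ x y, u = x ++ y ∧ True ∧ y = [a] ∧ ¬ Γ a) ∧ True) := by
    exact exists_finite fun a => concat (concat top ((letter a).and (const (¬ Γ a)))) top
  refine h.not.congr (fun w => ?_)
  constructor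
  · intro hn a ha
    by_contra hΓ
    obtain ⟨x, y, rfl⟩ := List.append_of_mem ha
    exact hn ⟨a, x ++ [a], y, by simp, ⟨x, [a], rfl, trivial, rfl, hΓ⟩, trivial⟩
  · rintro hw ⟨a, u, v, rfl, ⟨x, y, rfl, _, rfl, hΓ⟩, _⟩
    exact hΓ (hw a (by simp))

end Gsh

section Automata

variable {Q : Type v} (δ : Q → α → Q) (c : Q)

/-- The state reached from `p` after reading `w`. -/
def run (p : Q) (w : List α) : Q := w.foldl δ p

@[simp] theorem run_nil (p : Q) : run δ p ([] : List α) = p := rfl

@[simp] theorem run_cons (p : Q) (a : α) (w : List α) : run δ p (a :: w) = run δ (δ p a) w := rfl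

@[simp] theorem run_append (p : Q) (u v : List α) : run δ p (u ++ v) = run δ (run δ p u) v := by
  simp [run, List.foldl_append]

/-- The trajectory of `w` from `p` stays away from the state `c`. -/
def Avoid : Q → List α → Prop
  | p, [] => p ≠ c
  | p, a :: w => p ≠ c ∧ Avoid (δ p a) w

variable {δ c}

theorem Avoid.ne {p : Q} {w : List α} (h : Avoid δ c p w) : p ≠ c := by
  cases w with
  | nil => exact h
  | cons a w => exact h.1

theorem avoid_append {p : Q} {u v : List α} (h₁ : Avoid δ c p u) (h₂ : Avoid δ c (run δ p u) v) :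
    Avoid δ c p (u ++ v) := by
  induction u generalizing p with
  | nil => simpa using h₂
  | cons a u ih => exact ⟨h₁.1, ih h₁.2 (by simpa using h₂)⟩

theorem avoid_left {p : Q} {u v : List α} (h : Avoid δ c p (u ++ v)) : Avoid δ c p u := by
  induction u generalizing p with
  | nil => exact h.ne
  | cons a u ih => exact ⟨h.1, ih h.2⟩

theorem avoid_right {p : Q} {u v : List α} (h : Avoid δ c p (u ++ v)) :
    Avoid δ c (run δ p u) v := by
  induction u generalizing p with
  | nil => simpa using h
  | cons a u ih => simpa using ih h.2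

theorem run_of_forall_fix {p : Q} {u : List α} (h : ∀ a ∈ u, δ p a = p) : run δ p u = p := by
  induction u with
  | nil => rfl
  | cons a u ih =>
    simp only [run_cons, h a (by simp)]
    exact ih (fun b hb => h b (by simp [hb]))

variable (δ c)

/-- `u` takes `p` to `c`, and `c` is reached for the first time at the very end of `u`. -/
def FirstHit (p : Q) (w : List α) : Prop :=
  ∃ u a, w = u ++ [a] ∧ Avoid δ c p u ∧ δ (run δ p u) a = c

/-- The first return words at `c`. -/
def Ret (w : List α) : Prop :=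
  ∃ a v, w = a :: v ∧ ((δ c a = c ∧ v = []) ∨ (δ c a ≠ c ∧ FirstHit δ c (δ c a) v))

/-- Words leaving `c` and never coming back, ending at `q`. -/
def Leave (q : Q) (w : List α) : Prop :=
  ∃ a v, w = a :: v ∧ Avoid δ c (δ c a) v ∧ run δ (δ c a) v = q

variable {δ c}

theorem FirstHit.run {p : Q} {w : List α} (h : FirstHit δ c p w) : run δ p w = c := by
  obtain ⟨u, a, rfl, _, h⟩ := h
  simpa using h

theorem Ret.run {w : List α} (h : Ret δ c w) : run δ c w = c := by
  obtain ⟨a, v, rfl, ⟨h, rfl⟩ | ⟨_, h⟩⟩ := h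
  · simpa using h
  · simpa using h.run

theorem run_flatten_ret {L : List (List α)} (h : ∀ y ∈ L, Ret δ c y) :
    run δ c L.flatten = c := by
  induction L with
  | nil => rfl
  | cons x L ih =>
    simp only [List.flatten_cons, run_append]
    rw [(h x (by simp)).run]
    exact ih (fun y hy => h y (by simp [hy]))

/-- Decomposition of a word from `p` to `c`. -/
theorem firstHit_split {p : Q} {v : List α} (hp : p ≠ c) (hv : run δ p v = c) :
    ∃ u v', v = u ++ v' ∧ FirstHit δ c p u ∧ run δ c v' = c := by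
  induction v generalizing p with
  | nil => exact absurd hv hp
  | cons b v ih =>
    by_cases hb : δ p b = c
    · refine ⟨[b], v, rfl, ⟨[], b, rfl, hp, hb⟩, ?_⟩
      simpa [hb] using hv
    · obtain ⟨u, v', rfl, ⟨x, a, rfl, hx, ha⟩, hv'⟩ := ih hb (by simpa using hv)
      exact ⟨b :: (x ++ [a]), v', by simp, ⟨b :: x, a, by simp, ⟨hp, hx⟩, by simpa using ha⟩, hv'⟩

/-- Decomposition of a word from `p` to an arbitrary state: either it avoids `c`, or it splits at
the first visit to `c`. -/
theorem avoid_or_split {p : Q} {v : List α} (hp : p ≠ c) :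
    Avoid δ c p v ∨ ∃ u v', v = u ++ v' ∧ FirstHit δ c p u := by
  induction v generalizing p with
  | nil => exact Or.inl hp
  | cons b v ih =>
    by_cases hb : δ p b = c
    · exact Or.inr ⟨[b], v, rfl, [], b, rfl, hp, hb⟩
    · rcases ih hb with h | ⟨u, v', rfl, x, a, rfl, hx, ha⟩
      · exact Or.inl ⟨hp, h⟩
      · exact Or.inr ⟨b :: (x ++ [a]), v', by simp, b :: x, a, by simp, ⟨hp, hx⟩, by simpa using ha⟩

theorem run_self_iff {w : List α} :
    run δ c w = c ↔ ∃ L : List (List α), w = L.flatten ∧ ∀ y ∈ L, Ret δ c y := by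
  constructor
  · intro hw
    induction' hn : w.length using Nat.strong_induction_on with n ih generalizing w
    cases w with
    | nil => exact ⟨[], rfl, by simp⟩
    | cons a v =>
      by_cases ha : δ c a = c
      · obtain ⟨L, rfl, hL⟩ := ih v.length (by simp [← hn]) (by simpa [ha] using hw) rfl
        refine ⟨[a] :: L, rfl, ?_⟩
        intro y hy
        rcases List.mem_cons.1 hy with rfl | hy
        · exact ⟨a, [], rfl, Or.inl ⟨ha, rfl⟩⟩
        · exact hL y hy
      · obtain ⟨u, v', rfl, hu, hv'⟩ := firstHit_split ha (by simpa using hw)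
        obtain ⟨L, rfl, hL⟩ := ih v'.length (by simp [← hn]) hv' rfl
        refine ⟨(a :: u) :: L, by simp, ?_⟩
        intro y hy
        rcases List.mem_cons.1 hy with rfl | hy
        · exact ⟨a, u, rfl, Or.inr ⟨ha, hu⟩⟩
        · exact hL y hy
  · rintro ⟨L, rfl, hL⟩
    exact run_flatten_ret hL

theorem run_base_iff {w : List α} {q : Q} (hq : q ≠ c) :
    run δ c w = q ↔ ∃ x y, w = x ++ y ∧ run δ c x = c ∧ Leave δ c q y := by
  constructor
  · intro hw
    induction' hn : w.length using Nat.strong_induction_on with n ih generalizing w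
    cases w with
    | nil => exact absurd hw.symm hq
    | cons a v =>
      by_cases ha : δ c a = c
      · obtain ⟨x, y, rfl, hx, hy⟩ := ih v.length (by simp [← hn]) (by simpa [ha] using hw) rfl
        exact ⟨a :: x, y, rfl, by simpa [ha] using hx, hy⟩
      · have hrun : run δ (δ c a) v = q := by simpa using hw
        rcases avoid_or_split (v := v) ha with h | ⟨u, v', rfl, hu⟩
        · exact ⟨[], a :: v, rfl, rfl, a, v, rfl, h, hrun⟩
        · have hv' : run δ c v' = q := by
            simpa [hu.run] using hrun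
          obtain ⟨x, y, rfl, hx, hy⟩ := ih v'.length (by simp [← hn]) hv' rfl
          refine ⟨a :: u ++ x, y, by simp, ?_, hy⟩
          simp [ha, hu.run, hx]
  · rintro ⟨x, y, rfl, hx, a, v, rfl, _, hrun⟩
    simpa [hx] using hrun

theorem run_other_iff {p q : Q} {w : List α} (hp : p ≠ c) :
    run δ p w = q ↔ (Avoid δ c p w ∧ run δ p w = q) ∨
      ∃ u v, w = u ++ v ∧ FirstHit δ c p u ∧ run δ c v = q := by
  constructor
  · intro hw
    rcases avoid_or_split (v := w) hp with h | ⟨u, v, rfl, hu⟩
    · exact Or.inl ⟨h, hw⟩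
    · exact Or.inr ⟨u, v, rfl, hu, by simpa [hu.run] using hw⟩
  · rintro (⟨_, h⟩ | ⟨u, v, rfl, hu, h⟩)
    · exact h
    · simpa [hu.run] using h

section Criterion

variable [Finite α] [Finite Q]

/-- In an automaton which is partially ordered away from the base state, the words avoiding the
base state between two given states form a star-free language. -/
theorem gsh_avoid (ρ : Q → ℕ)
    (hρ : ∀ q a, q ≠ c → δ q a ≠ c → δ q a = q ∨ ρ q < ρ (δ q a)) (p q : Q) :
    Gsh 0 (fun w => Avoid δ c p w ∧ run δ p w = q) := by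
  classical
  obtain ⟨B, hB⟩ := (Set.finite_range ρ).bddAbove
  have hB' : ∀ q, ρ q ≤ B := fun q => hB ⟨q, rfl⟩
  induction' hn : B - ρ p using Nat.strong_induction_on with n ih generalizing p
  by_cases hp : p = c
  · subst hp
    refine Gsh.bot.congr (fun w => ?_)
    simp only [false_iff, not_and]
    intro h
    exact absurd rfl h.ne
  have hstep : ∀ a, δ p a ≠ p → δ p a ≠ c →
      Gsh 0 (fun w => Avoid δ c (δ p a) w ∧ run δ (δ p a) w = q) := by
    intro a ha hc
    have hlt := (hρ p a hp hc).resolve_left ha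
    have := hB' (δ p a)
    exact ih (B - ρ (δ p a)) (by omega) (δ p a) rfl
  have htail : Gsh 0 (fun v : List α => (v = [] ∧ p = q) ∨
      ∃ a, δ p a ≠ p ∧ δ p a ≠ c ∧ ∃ v', v = a :: v' ∧
        (Avoid δ c (δ p a) v' ∧ run δ (δ p a) v' = q)) := by
    refine Gsh.or (Gsh.eps.and (Gsh.const _)) (Gsh.exists_finite fun a => ?_)
    by_cases ha : δ p a ≠ p ∧ δ p a ≠ c
    · refine ((Gsh.cons a (hstep a ha.1 ha.2)).and (Gsh.const (δ p a ≠ p ∧ δ p a ≠ c))).congr ?_
      intro w
      tauto
    · refine Gsh.bot.congr (fun w => ?_)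
      simp only [false_iff]
      tauto
  refine ((Gsh.subalphabet (fun a => δ p a = p)).concat htail).congr (fun w => ?_)
  constructor
  · rintro ⟨u, v, rfl, hu, hv⟩
    have hru : run δ p u = p := run_of_forall_fix hu
    have hau : Avoid δ c p u := by
      clear hv
      induction u with
      | nil => exact hp
      | cons b u ihu =>
        refine ⟨hp, ?_⟩
        rw [hu b (by simp)]
        exact ihu (fun a ha => hu a (by simp [ha])) (run_of_forall_fix fun a ha => hu a (by simp [ha]))
    rcases hv with ⟨rfl, rfl⟩ | ⟨a, _, hc, v', rfl, hav, hrv⟩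
    · exact ⟨by simpa using hau, by simpa using hru⟩
    · refine ⟨avoid_append hau ?_, ?_⟩
      · rw [hru]
        exact ⟨hp, hav⟩
      · simpa [hru] using hrv
  · rintro ⟨hav, hrun⟩
    clear hn
    induction w with
    | nil => exact ⟨[], [], rfl, by simp, Or.inl ⟨rfl, hrun⟩⟩
    | cons a w ihw =>
      by_cases hfix : δ p a = p
      · have hav' : Avoid δ c p w := by simpa [Avoid, hfix] using hav.2
        have hrun' : run δ p w = q := by simpa [hfix] using hrun
        obtain ⟨u, v, rfl, hu, hv⟩ := ihw hav' hrun'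
        refine ⟨a :: u, v, rfl, ?_, hv⟩
        intro b hb
        rcases List.mem_cons.1 hb with rfl | hb
        · exact hfix
        · exact hu b hb
      · refine ⟨[], a :: w, rfl, by simp, Or.inr ⟨a, hfix, hav.2.ne, w, rfl, hav.2, by simpa using hrun⟩⟩

theorem gsh_firstHit (ρ : Q → ℕ)
    (hρ : ∀ q a, q ≠ c → δ q a ≠ c → δ q a = q ∨ ρ q < ρ (δ q a)) (p : Q) :
    Gsh 0 (FirstHit δ c p) := by
  have h : Gsh 0 (fun w : List α => ∃ q : Q, ∃ a : α, δ q a = c ∧
      ∃ u v, w = u ++ v ∧ (Avoid δ c p u ∧ run δ p u = q) ∧ v = [a]) := by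
    refine Gsh.exists_finite fun q => Gsh.exists_finite fun a => ?_
    refine ((gsh_avoid ρ hρ p q).concat (Gsh.letter a) |>.and (Gsh.const (δ q a = c))).congr ?_
    intro w
    tauto
  refine h.congr (fun w => ?_)
  constructor
  · rintro ⟨q, a, ha, u, v, rfl, ⟨hu, rfl⟩, rfl⟩
    exact ⟨u, a, rfl, hu, ha⟩
  · rintro ⟨u, a, rfl, hu, ha⟩
    exact ⟨_, a, ha, u, [a], rfl, ⟨hu, rfl⟩, rfl⟩

theorem gsh_ret (ρ : Q → ℕ)
    (hρ : ∀ q a, q ≠ c → δ q a ≠ c → δ q a = q ∨ ρ q < ρ (δ q a)) :
    Gsh 0 (Ret δ c) := by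
  have h : Gsh 0 (fun w : List α => ∃ a, ∃ v, w = a :: v ∧
      ((δ c a = c ∧ v = []) ∨ (δ c a ≠ c ∧ FirstHit δ c (δ c a) v))) :=
    Gsh.exists_finite fun a => Gsh.cons a (Gsh.or ((Gsh.const _).and Gsh.eps)
      ((Gsh.const _).and (gsh_firstHit ρ hρ _)))
  exact h

theorem gsh_leave (ρ : Q → ℕ)
    (hρ : ∀ q a, q ≠ c → δ q a ≠ c → δ q a = q ∨ ρ q < ρ (δ q a)) (q : Q) :
    Gsh 0 (Leave δ c q) := by
  have h : Gsh 0 (fun w : List α => ∃ a, ∃ v, w = a :: v ∧
      (Avoid δ c (δ c a) v ∧ run δ (δ c a) v = q)) :=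
    Gsh.exists_finite fun a => Gsh.cons a (gsh_avoid ρ hρ _ q)
  exact h

/-- **The criterion**: if an automaton is partially ordered away from one base state (every letter
either fixes a state different from `c`, or moves it to `c`, or strictly increases a rank), then
every language `{w | p · w = q}` has generalized star height at most one. -/
theorem gsh_run (ρ : Q → ℕ)
    (hρ : ∀ q a, q ≠ c → δ q a ≠ c → δ q a = q ∨ ρ q < ρ (δ q a)) (p q : Q) :
    Gsh 1 (fun w => run δ p w = q) := by
  classical
  have hcc : Gsh 1 (fun w => run δ c w = c) :=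
    (Gsh.star (gsh_ret ρ hρ)).congr (fun w => run_self_iff.symm)
  have hcq : ∀ q : Q, Gsh 1 (fun w => run δ c w = q) := by
    intro q
    by_cases hq : q = c
    · subst hq
      exact hcc
    · exact (hcc.concat ((gsh_leave ρ hρ q).mono (Nat.zero_le 1))).congr (fun w => by
        rw [run_base_iff hq])
  by_cases hp : p = c
  · subst hp
    exact hcq q
  · refine (((gsh_avoid ρ hρ p q).mono (Nat.zero_le 1)).or
      (((gsh_firstHit ρ hρ p).mono (Nat.zero_le 1)).concat (hcq q))).congr (fun w => ?_)
    exact (run_other_iff hp).symm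

end Criterion

end Automata

/-- `f` has all its fibres of generalized star height at most one. -/
def Rec1 {β : Type v} (f : List α → β) : Prop := ∀ b, Gsh 1 (fun w => f w = b)

namespace Rec1

variable {β : Type v} {γ : Type*} {f : List α → β}

theorem congr_fun {g : List α → β} (hf : Rec1 f) (h : ∀ w, f w = g w) : Rec1 g := by
  intro b
  refine (hf b).congr (fun w => ?_)
  rw [h w]

theorem comp [Finite β] (hf : Rec1 f) (h : β → γ) : Rec1 (fun w => h (f w)) := by
  intro b
  refine (Gsh.exists_finite (ι := β) fun b' => (hf b').and (Gsh.const (h b' = b))).congr ?_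
  intro w
  constructor
  · rintro ⟨b', rfl, rfl⟩
    rfl
  · intro hw
    exact ⟨f w, rfl, hw⟩

theorem pair {g : List α → γ} (hf : Rec1 f) (hg : Rec1 g) : Rec1 (fun w => (f w, g w)) := by
  rintro ⟨b, b'⟩
  refine ((hf b).and (hg b')).congr ?_
  intro w
  simp

theorem pi {ι : Type*} [Finite ι] {β : ι → Type v} {f : ∀ i, List α → β i}
    (hf : ∀ i, Rec1 (f i)) : Rec1 (fun w i => f i w) := by
  intro b
  refine (Gsh.forall_finite (fun i => hf i (b i))).congr ?_
  intro w
  exact funext_iff.symm

end Rec1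

end Vale.Agent.Lib.P329
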