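import Vale.Agent.Lib.P329.Aperiodic

/-!
# The counter-free criterion

An automaton is counter-free away from a base state `c` if every word `π` which can be read
forever from a state `q` without visiting `c` fixes `q`.  Then the monoid of the automaton in which
`c` is made a sink is aperiodic, so the words avoiding `c` form star-free languages, and all
the languages of the automaton have generalized star height at most one.
-/

namespace Vale.Agent.Lib.P329

universe u v

section

variable {α : Type u} {Q : Type v} (δ : Q → α → Q) (c : Q)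

open Classical in
/-- The automaton in which `c` is made a sink. -/
noncomputable def sink (q : Q) (a : α) : Q := if q = c then c else δ q a

/-- Counter-free away from `c`. -/
def CounterFree : Prop :=
  ∀ (π : List α) (q : Q), (∀ k : ℕ, Avoid δ c q (List.replicate k π).flatten) → run δ q π = q

variable {δ c}

theorem sink_base (a : α) : sink δ c c a = c := by simp [sink]

theorem sink_ne {q : Q} (hq : q ≠ c) (a : α) : sink δ c q a = δ q a := by simp [sink, hq]

theorem run_sink_base (w : List α) : run (sink δ c) c w = c := by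
  induction w with
  | nil => rfl
  | cons a w ih => simpa [sink_base] using ih

theorem run_sink_of_avoid {p : Q} {w : List α} (h : Avoid δ c p w) :
    run (sink δ c) p w = run δ p w := by
  induction w generalizing p with
  | nil => rfl
  | cons a w ih =>
    simp only [run_cons, sink_ne h.1]
    exact ih h.2

theorem avoid_iff {p : Q} {w : List α} : Avoid δ c p w ↔ run (sink δ c) p w ≠ c := by
  induction w generalizing p with
  | nil => exact Iff.rfl
  | cons a w ih =>
    by_cases hp : p = c
    · subst hp
      simp only [run_cons, sink_base, run_sink_base, ne_eq, not_true_eq_false, iff_false]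
      exact fun h => h.1 rfl
    · simp only [run_cons, sink_ne hp]
      rw [← ih]
      exact ⟨fun h => h.2, fun h => ⟨hp, h⟩⟩

end

section WordMaps

variable {α : Type u} {Q : Type v} (δ : Q → α → Q)

/-- The maps on states induced by words. -/
def WordMaps : Type v := {f : Q → Q // ∃ w : List α, f = fun q => run δ q w}

namespace WordMaps

variable {δ}

instance : Mul (WordMaps δ) :=
  ⟨fun f g => ⟨fun q => g.1 (f.1 q), by
    obtain ⟨u, hu⟩ := f.2
    obtain ⟨v, hv⟩ := g.2
    refine ⟨u ++ v, ?_⟩
    funext q
    simp [hu, hv]⟩⟩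

instance : One (WordMaps δ) := ⟨⟨fun q => q, [], rfl⟩⟩

theorem mul_apply (f g : WordMaps δ) (q : Q) : (f * g).1 q = g.1 (f.1 q) := rfl

theorem one_apply (q : Q) : (1 : WordMaps δ).1 q = q := rfl

instance : Monoid (WordMaps δ) where
  mul_assoc _ _ _ := rfl
  one_mul _ := rfl
  mul_one _ := rfl

theorem pow_apply (f : WordMaps δ) (n : ℕ) (q : Q) : (f ^ n).1 q = f.1^[n] q := by
  induction n generalizing q with
  | zero => rfl
  | succ n ih => rw [pow_succ, mul_apply, ih, Function.iterate_succ_apply']

instance [Finite Q] : Finite (WordMaps δ) := Subtype.finite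

variable (δ) in
/-- The map of a letter. -/
def gen (a : α) : WordMaps δ := ⟨fun q => δ q a, [a], rfl⟩

theorem prod_apply (w : List α) (q : Q) : ((w.map (gen δ)).prod).1 q = run δ q w := by
  induction w generalizing q with
  | nil => rfl
  | cons a w ih =>
    simp only [List.map_cons, List.prod_cons, mul_apply, ih]
    rfl

end WordMaps

end WordMaps

section Criterion

variable {α : Type u} {Q : Type v} {δ : Q → α → Q} {c : Q}

theorem run_flatten_replicate (δ : Q → α → Q) (π : List α) (k : ℕ) (q : Q) :
    run δ q (List.replicate k π).flatten = (fun q => run δ q π)^[k] q := by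
  induction k generalizing q with
  | zero => rfl
  | succ k ih =>
    simp only [List.replicate_succ, List.flatten_cons, run_append, Function.iterate_succ_apply]
    exact ih _

theorem wordMaps_aperiodic [Finite Q] (hCF : CounterFree δ c) (t : WordMaps (sink δ c)) :
    ∃ n : ℕ, t ^ n = t ^ (n + 1) := by
  classical
  haveI := Fintype.ofFinite Q
  obtain ⟨π, hπ⟩ := t.2
  set f := t.1 with hf
  have hfix : f c = c := by
    rw [hπ]
    exact run_sink_base π
  have hone : ∀ q, ∃ N : ℕ, f^[N] q = f^[N + 1] q := by
    intro q
    by_cases h : ∃ k, f^[k] q = c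
    · obtain ⟨k, hk⟩ := h
      refine ⟨k, ?_⟩
      rw [Function.iterate_succ_apply', hk, hfix]
    · push_neg at h
      refine ⟨0, ?_⟩
      have hav : ∀ k : ℕ, Avoid δ c q (List.replicate k π).flatten := by
        intro k
        rw [avoid_iff, run_flatten_replicate, ← hπ]
        exact h k
      have h1 : run δ q π = q := hCF π q hav
      have h2 : Avoid δ c q π := by simpa using hav 1
      have h3 : run (sink δ c) q π = q := by rw [run_sink_of_avoid h2, h1]
      simp only [Function.iterate_zero, id_eq, zero_add, Function.iterate_one]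
      rw [hπ]
      exact h3.symm
  choose N hN using hone
  have hmono : ∀ q m, N q ≤ m → f^[m] q = f^[m + 1] q := by
    intro q m hm
    induction m, hm using Nat.le_induction with
    | base => exact hN q
    | succ m _ ih =>
      calc f^[m + 1] q = f (f^[m] q) := Function.iterate_succ_apply' f m q
        _ = f (f^[m + 1] q) := by rw [ih]
        _ = f^[m + 1 + 1] q := (Function.iterate_succ_apply' f (m + 1) q).symm
  refine ⟨∑ q, N q, Subtype.ext (funext fun q => ?_)⟩
  rw [WordMaps.pow_apply, WordMaps.pow_apply]
  exact hmono q _ (Finset.single_le_sum (fun _ _ => Nat.zero_le _) (Finset.mem_univ q))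

variable [Finite α] [Finite Q]

/-- In a counter-free automaton, the words avoiding the base state between two given states form
a star-free language. -/
theorem gsh_avoid_cf (hCF : CounterFree δ c) (p q : Q) :
    Gsh 0 (fun w => Avoid δ c p w ∧ run δ p w = q) := by
  have h : ∀ t : WordMaps (sink δ c), Gsh 0 (fun w : List α => (w.map (WordMaps.gen (sink δ c))).prod = t) :=
    fun t => gsh_prod (wordMaps_aperiodic hCF) _ t
  refine (Gsh.exists_finite (fun t : WordMaps (sink δ c) =>
    (h t).and (Gsh.const (t.1 p = q ∧ q ≠ c)))).congr (fun w => ?_)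
  constructor
  · rintro ⟨t, rfl, h1, h2⟩
    rw [WordMaps.prod_apply] at h1
    have hav : Avoid δ c p w := by
      rw [avoid_iff, h1]
      exact h2
    exact ⟨hav, by rw [← run_sink_of_avoid hav, h1]⟩
  · rintro ⟨hav, hrun⟩
    refine ⟨_, rfl, ?_, ?_⟩
    · rw [WordMaps.prod_apply, run_sink_of_avoid hav, hrun]
    · rw [← hrun, ← run_sink_of_avoid hav]
      exact avoid_iff.1 hav

theorem gsh_firstHit_of (hA : ∀ p q, Gsh 0 (fun w => Avoid δ c p w ∧ run δ p w = q)) (p : Q) :
    Gsh 0 (FirstHit δ c p) := by
  have h : Gsh 0 (fun w : List α => ∃ q : Q, ∃ a : α, δ q a = c ∧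
      ∃ u v, w = u ++ v ∧ (Avoid δ c p u ∧ run δ p u = q) ∧ v = [a]) := by
    refine Gsh.exists_finite fun q => Gsh.exists_finite fun a => ?_
    refine ((hA p q).concat (Gsh.letter a) |>.and (Gsh.const (δ q a = c))).congr ?_
    intro w
    tauto
  refine h.congr (fun w => ?_)
  constructor
  · rintro ⟨q, a, ha, u, v, rfl, ⟨hu, rfl⟩, rfl⟩
    exact ⟨u, a, rfl, hu, ha⟩
  · rintro ⟨u, a, rfl, hu, ha⟩
    exact ⟨_, a, ha, u, [a], rfl, ⟨hu, rfl⟩, rfl⟩

theorem gsh_ret_of (hA : ∀ p q, Gsh 0 (fun w => Avoid δ c p w ∧ run δ p w = q)) :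
    Gsh 0 (Ret δ c) := by
  have h : Gsh 0 (fun w : List α => ∃ a, ∃ v, w = a :: v ∧
      ((δ c a = c ∧ v = []) ∨ (δ c a ≠ c ∧ FirstHit δ c (δ c a) v))) :=
    Gsh.exists_finite fun a => Gsh.cons a (Gsh.or ((Gsh.const _).and Gsh.eps)
      ((Gsh.const _).and (gsh_firstHit_of hA _)))
  exact h

theorem gsh_leave_of (hA : ∀ p q, Gsh 0 (fun w => Avoid δ c p w ∧ run δ p w = q)) (q : Q) :
    Gsh 0 (Leave δ c q) := by
  have h : Gsh 0 (fun w : List α => ∃ a, ∃ v, w = a :: v ∧
      (Avoid δ c (δ c a) v ∧ run δ (δ c a) v = q)) :=
    Gsh.exists_finite fun a => Gsh.cons a (hA _ q)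
  exact h

/-- If the words avoiding the base state form star-free languages, every language of the automaton
has generalized star height at most one. -/
theorem gsh_run_of (hA : ∀ p q, Gsh 0 (fun w => Avoid δ c p w ∧ run δ p w = q)) (p q : Q) :
    Gsh 1 (fun w => run δ p w = q) := by
  classical
  have hcc : Gsh 1 (fun w => run δ c w = c) :=
    (Gsh.star (gsh_ret_of hA)).congr (fun w => run_self_iff.symm)
  have hcq : ∀ q : Q, Gsh 1 (fun w => run δ c w = q) := by
    intro q
    by_cases hq : q = c
    · subst hq
      exact hcc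
    · exact (hcc.concat ((gsh_leave_of hA q).mono (Nat.zero_le 1))).congr (fun w => by
        rw [run_base_iff hq])
  by_cases hp : p = c
  · subst hp
    exact hcq q
  · refine (((hA p q).mono (Nat.zero_le 1)).or
      (((gsh_firstHit_of hA p).mono (Nat.zero_le 1)).concat (hcq q))).congr (fun w => ?_)
    exact (run_other_iff hp).symm

/-- **The counter-free criterion.** -/
theorem rec1_run_cf (hCF : CounterFree δ c) (p : Q) : Rec1 (run δ p) :=
  fun q => gsh_run_of (gsh_avoid_cf hCF) p q

end Criterion

end Vale.Agent.Lib.P329
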