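import Vale.Agent.Lib.P329.Odometer

/-!
# Nilpotent groups of class at most three
-/

namespace Vale.Agent.Lib.P329

universe u v

open scoped commutatorElement

/-- The two relevant terms of the lower central series of a group of class at most three, with the
properties that are used. -/
structure Tower (G : Type v) [Group G] where
  A : Subgroup G
  Z : Subgroup G
  hcA : ∀ x y : G, ⁅x, y⁆ ∈ A
  hAZ : ∀ t : G, ∀ a ∈ A, ⁅t, a⁆ ∈ Z
  hZ : ∀ e ∈ Z, ∀ t : G, e * t = t * e
  hAA : ∀ a ∈ A, ∀ b ∈ A, a * b = b * a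
  hZA : ∀ e ∈ Z, e ∈ A

/-- The tower of a group of class at most three. -/
def towerOf {G : Type v} [Group G] (hG : (⊤ : Subgroup G).lowerCentralSeries 3 = ⊥) : Tower G where
  A := (⊤ : Subgroup G).lowerCentralSeries 1
  Z := (⊤ : Subgroup G).lowerCentralSeries 2
  hcA x y := by
    have : ⁅x, y⁆ ∈ ⁅(⊤ : Subgroup G).lowerCentralSeries 0, (⊤ : Subgroup G)⁆ :=
      Subgroup.commutator_mem_commutator (by simp) (Subgroup.mem_top y)
    exact this
  hAZ t a ha := by
    have : ⁅a, t⁆ ∈ ⁅(⊤ : Subgroup G).lowerCentralSeries 1, (⊤ : Subgroup G)⁆ :=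
      Subgroup.commutator_mem_commutator ha (Subgroup.mem_top t)
    have h2 : ⁅a, t⁆ ∈ (⊤ : Subgroup G).lowerCentralSeries 2 := this
    have h3 := ((⊤ : Subgroup G).lowerCentralSeries 2).inv_mem h2
    rwa [commutatorElement_inv] at h3
  hZ e he t := by
    have : ⁅e, t⁆ ∈ ⁅(⊤ : Subgroup G).lowerCentralSeries 2, (⊤ : Subgroup G)⁆ :=
      Subgroup.commutator_mem_commutator he (Subgroup.mem_top t)
    have h3 : ⁅e, t⁆ ∈ (⊤ : Subgroup G).lowerCentralSeries 3 := this
    rw [hG, Subgroup.mem_bot] at h3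
    exact commutatorElement_eq_one_iff_mul_comm.1 h3
  hAA a ha b hb := by
    have hbot : ⁅⁅(⊤ : Subgroup G), (⊤ : Subgroup G)⁆, (⊤ : Subgroup G).lowerCentralSeries 1⁆ = ⊥ := by
      apply Subgroup.commutator_commutator_eq_bot_of_rotate
      · rw [Subgroup.commutator_comm (⊤ : Subgroup G) ((⊤ : Subgroup G).lowerCentralSeries 1)]
        exact hG
      · exact hG
    have h1 : (⊤ : Subgroup G).lowerCentralSeries 1 = ⁅(⊤ : Subgroup G), (⊤ : Subgroup G)⁆ := rfl
    have : ⁅a, b⁆ ∈ ⁅⁅(⊤ : Subgroup G), (⊤ : Subgroup G)⁆, (⊤ : Subgroup G).lowerCentralSeries 1⁆ :=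
      Subgroup.commutator_mem_commutator (h1 ▸ ha) hb
    rw [hbot, Subgroup.mem_bot] at this
    exact commutatorElement_eq_one_iff_mul_comm.1 this
  hZA e he := Subgroup.lowerCentralSeries_antitone _ (by norm_num : 1 ≤ 2) he

section Commutators

variable {G : Type v} [Group G] (D : Tower G)

include D

theorem comm_mul_right (t : G) {a b : G} (hb : b ∈ D.A) : ⁅t, a * b⁆ = ⁅t, a⁆ * ⁅t, b⁆ := by
  have he : ⁅t, b⁆ * a⁻¹ = a⁻¹ * ⁅t, b⁆ := D.hZ _ (D.hAZ t b hb) _
  calc ⁅t, a * b⁆ = t * a * t⁻¹ * (⁅t, b⁆ * a⁻¹) := by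
        simp only [commutatorElement_def]; group
    _ = t * a * t⁻¹ * (a⁻¹ * ⁅t, b⁆) := by rw [he]
    _ = ⁅t, a⁆ * ⁅t, b⁆ := by
        simp only [commutatorElement_def]; group

theorem comm_mul_left (u v : G) {a : G} (ha : a ∈ D.A) : ⁅u * v, a⁆ = ⁅v, a⁆ * ⁅u, a⁆ := by
  have he : u * ⁅v, a⁆ = ⁅v, a⁆ * u := (D.hZ _ (D.hAZ v a ha) u).symm
  calc ⁅u * v, a⁆ = (u * ⁅v, a⁆) * (a * u⁻¹ * a⁻¹) := by
        simp only [commutatorElement_def]; group
    _ = (⁅v, a⁆ * u) * (a * u⁻¹ * a⁻¹) := by rw [he]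
    _ = ⁅v, a⁆ * ⁅u, a⁆ := by
        simp only [commutatorElement_def]; group

theorem comm_pow_left (u : G) {a : G} (ha : a ∈ D.A) (m : ℕ) : ⁅u ^ m, a⁆ = ⁅u, a⁆ ^ m := by
  induction m with
  | zero => simp
  | succ m ih => rw [pow_succ, comm_mul_left D _ _ ha, ih, pow_succ']

theorem comm_pow_right (t : G) {a : G} (ha : a ∈ D.A) (n : ℕ) : ⁅t, a ^ n⁆ = ⁅t, a⁆ ^ n := by
  induction n with
  | zero => simp
  | succ n ih => rw [pow_succ, comm_mul_right D _ ha, ih, pow_succ]

theorem comm_central (t : G) {e : G} (he : e ∈ D.Z) : ⁅t, e⁆ = 1 := by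
  rw [commutatorElement_eq_one_iff_mul_comm]
  exact (D.hZ e he t).symm

theorem comm_mul_three (h₁ h₂ g : G) : ⁅h₁ * h₂, g⁆ = ⁅h₁, ⁅h₂, g⁆⁆ * ⁅h₂, g⁆ * ⁅h₁, g⁆ := by
  simp only [commutatorElement_def]; group

theorem comm_pow_choose (u g : G) (m : ℕ) :
    ⁅u ^ m, g⁆ = ⁅u, g⁆ ^ m * ⁅u, ⁅u, g⁆⁆ ^ (m.choose 2) := by
  induction m with
  | zero => simp
  | succ m ih =>
    have hA := D.hcA u g
    have hE : ⁅u, ⁅u, g⁆⁆ ∈ D.Z := D.hAZ u _ hA
    have h1 : ⁅u, ⁅u ^ m, g⁆⁆ = ⁅u, ⁅u, g⁆⁆ ^ m := by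
      rw [ih, comm_mul_right D _ (D.hZA _ (D.Z.pow_mem hE _)),
        comm_pow_right D _ hA, comm_central D _ (D.Z.pow_mem hE _), mul_one]
    have hchoose : (m + 1).choose 2 = m + m.choose 2 := by
      rw [Nat.choose_succ_succ' m 1, Nat.choose_one_right]
    have hz : (⁅u, ⁅u, g⁆⁆ ^ m * ⁅u, ⁅u, g⁆⁆ ^ m.choose 2) * ⁅u, g⁆ =
        ⁅u, g⁆ * (⁅u, ⁅u, g⁆⁆ ^ m * ⁅u, ⁅u, g⁆⁆ ^ m.choose 2) :=
      D.hZ _ (D.Z.mul_mem (D.Z.pow_mem hE _) (D.Z.pow_mem hE _)) _
    have hc2 : ⁅u, ⁅u, g⁆⁆ ^ m * ⁅u, g⁆ ^ m = ⁅u, g⁆ ^ m * ⁅u, ⁅u, g⁆⁆ ^ m :=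
      D.hZ _ (D.Z.pow_mem hE _) _
    rw [pow_succ', comm_mul_three D, h1, ih, hchoose, pow_add ⁅u, ⁅u, g⁆⁆, pow_succ ⁅u, g⁆]
    calc ⁅u, ⁅u, g⁆⁆ ^ m * (⁅u, g⁆ ^ m * ⁅u, ⁅u, g⁆⁆ ^ m.choose 2) * ⁅u, g⁆
        = (⁅u, ⁅u, g⁆⁆ ^ m * ⁅u, g⁆ ^ m) * ⁅u, ⁅u, g⁆⁆ ^ m.choose 2 * ⁅u, g⁆ := by
          simp only [mul_assoc]
      _ = ⁅u, g⁆ ^ m * ((⁅u, ⁅u, g⁆⁆ ^ m * ⁅u, ⁅u, g⁆⁆ ^ m.choose 2) * ⁅u, g⁆) := by
          rw [hc2]; simp only [mul_assoc]
      _ = _ := by rw [hz]; simp only [mul_assoc]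

end Commutators

section Deposits

variable {α : Type u} [DecidableEq α] {G : Type v} [Group G]

/-- Helper for `depG`, on reversed words. -/
def depGRev (x : α) (f : (α → ℕ) → G) : List α → G
  | [] => 1
  | a :: r => depGRev x f r * if a = x then f (cnt r) else 1

/-- The product of `f (count vector of the part of w before the occurrence)` over the occurrences of
the letter `x` in `w`. -/
def depG (x : α) (f : (α → ℕ) → G) (w : List α) : G := depGRev x f w.reverse

@[simp] theorem depG_nil (x : α) (f : (α → ℕ) → G) : depG x f [] = 1 := rfl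

theorem depG_snoc (x : α) (f : (α → ℕ) → G) (w : List α) (a : α) :
    depG x f (w ++ [a]) = depG x f w * if a = x then f (cnt w) else 1 := by
  simp [depG, depGRev]

theorem depG_pow (x : α) (a : G) (m : (α → ℕ) → ℕ) (w : List α) :
    depG x (fun c => a ^ m c) w = a ^ depN x m w := by
  induction w using List.reverseRecOn with
  | nil => simp
  | append_singleton w b ih =>
    rw [depG_snoc, depN_snoc, ih, pow_add]
    split_ifs <;> simp

variable (D : Tower G)

theorem depG_mem (x : α) {f : (α → ℕ) → G} (hf : ∀ c, f c ∈ D.A) (w : List α) :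
    depG x f w ∈ D.A := by
  induction w using List.reverseRecOn with
  | nil => exact D.A.one_mem
  | append_singleton w b ih =>
    rw [depG_snoc]
    refine D.A.mul_mem ih ?_
    split_ifs
    · exact hf _
    · exact D.A.one_mem

theorem depG_mul (x : α) {f f' : (α → ℕ) → G} (hf : ∀ c, f c ∈ D.A) (hf' : ∀ c, f' c ∈ D.A)
    (w : List α) : depG x (fun c => f c * f' c) w = depG x f w * depG x f' w := by
  induction w using List.reverseRecOn with
  | nil => simp
  | append_singleton w b ih =>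
    simp only [depG_snoc, ih]
    split_ifs
    · have := D.hAA _ (depG_mem D x hf' w) _ (hf (cnt w))
      calc depG x f w * depG x f' w * (f (cnt w) * f' (cnt w))
          = depG x f w * (depG x f' w * f (cnt w)) * f' (cnt w) := by simp only [mul_assoc]
        _ = depG x f w * (f (cnt w) * depG x f' w) * f' (cnt w) := by rw [this]
        _ = _ := by simp only [mul_assoc]
    · simp

/-- The product over occurrences of `x` of `f` is determined in a way of generalized star height
at most one, and `f` takes values in the abelian subgroup `A`. -/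
def Good (x : α) (f : (α → ℕ) → G) : Prop :=
  (∀ c, f c ∈ D.A) ∧ Rec1 (depG x f)

/-- Same as `Good`, for functions with values in the central subgroup `Z`. -/
def GoodZ (x : α) (f : (α → ℕ) → G) : Prop :=
  Good D x f ∧ ∀ c, f c ∈ D.Z

variable {D} [Finite G]

theorem Good.mul {x : α} {f f' : (α → ℕ) → G} (h : Good D x f) (h' : Good D x f') :
    Good D x (fun c => f c * f' c) := by
  refine ⟨fun c => D.A.mul_mem (h.1 c) (h'.1 c), ?_⟩
  refine ((h.2.pair h'.2).comp (fun q => q.1 * q.2)).congr_fun ?_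
  intro w
  exact (depG_mul D x h.1 h'.1 w).symm

theorem GoodZ.mul {x : α} {f f' : (α → ℕ) → G} (h : GoodZ D x f) (h' : GoodZ D x f') :
    GoodZ D x (fun c => f c * f' c) :=
  ⟨h.1.mul h'.1, fun c => D.Z.mul_mem (h.2 c) (h'.2 c)⟩

theorem goodZ_one (x : α) : GoodZ D x (fun _ => (1 : G)) := by
  refine ⟨⟨fun _ => D.A.one_mem, ?_⟩, fun _ => D.Z.one_mem⟩
  have hone : ∀ w : List α, depG x (fun _ => (1 : G)) w = 1 := by
    intro w
    induction w using List.reverseRecOn with
    | nil => simp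
    | append_singleton w b ih =>
      rw [depG_snoc, ih]
      simp
  intro b
  refine (Gsh.const (1 = b)).congr (fun w => ?_)
  rw [hone]

variable [Finite α]

theorem pow_eq_of_cast (a : G) (k : ℕ) :
    a ^ ((k : ZMod (Nat.card G)).val) = a ^ k := by
  haveI : NeZero (Nat.card G) := ⟨Nat.card_pos.ne'⟩
  rw [ZMod.val_natCast]
  conv_rhs => rw [← Nat.mod_add_div k (Nat.card G)]
  rw [pow_add, pow_mul, pow_card_eq_one', one_pow, mul_one]

theorem rec1_pow_of_cast {a : G} {N : List α → ℕ}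
    (h : Rec1 (fun w => (N w : ZMod (Nat.card G)))) : Rec1 (fun w => a ^ N w) := by
  haveI : NeZero (Nat.card G) := ⟨Nat.card_pos.ne'⟩
  refine (h.comp (fun t => a ^ t.val)).congr_fun ?_
  intro w
  exact pow_eq_of_cast a _

theorem good_lin {x y : α} (hy : y ≠ x) {a : G} (ha : a ∈ D.A) :
    Good D x (fun c => a ^ c y) := by
  refine ⟨fun c => D.A.pow_mem ha _, ?_⟩
  have := rec1_pow_of_cast (a := a) (rec1_mono1 (M := Nat.card G) Nat.card_pos hy)
  exact this.congr_fun (fun w => (depG_pow x a _ w).symm)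

theorem goodZ_choose {x y : α} (hy : y ≠ x) {e : G} (he : e ∈ D.Z) :
    GoodZ D x (fun c => e ^ (c y).choose 2) := by
  refine ⟨⟨fun c => D.hZA _ (D.Z.pow_mem he _), ?_⟩, fun c => D.Z.pow_mem he _⟩
  have := rec1_pow_of_cast (a := e) (rec1_mono2 (M := Nat.card G) Nat.card_pos hy)
  exact this.congr_fun (fun w => (depG_pow x e _ w).symm)

theorem goodZ_mono3 {x y : α} (hy : y ≠ x) (z : α) {e : G} (he : e ∈ D.Z) :
    GoodZ D x (fun c => e ^ (c z * c y)) := by
  refine ⟨⟨fun c => D.hZA _ (D.Z.pow_mem he _), ?_⟩, fun c => D.Z.pow_mem he _⟩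
  have := rec1_pow_of_cast (a := e) (rec1_mono3 (M := Nat.card G) Nat.card_pos hy z)
  exact this.congr_fun (fun w => (depG_pow x e _ w).symm)

variable (D) in
/-- Functions which are linear modulo the central part. -/
inductive Pol (x : α) : ((α → ℕ) → G) → Prop
  | lin (y : α) (a : G) (hy : y ≠ x) (ha : a ∈ D.A) : Pol x (fun c => a ^ c y)
  | cen (e : (α → ℕ) → G) (he : GoodZ D x e) : Pol x e
  | mul (f f' : (α → ℕ) → G) (hf : Pol x f) (hf' : Pol x f') : Pol x (fun c => f c * f' c)

theorem Pol.good {x : α} {f : (α → ℕ) → G} (h : Pol D x f) : Good D x f := by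
  induction h with
  | lin y a hy ha => exact good_lin hy ha
  | cen e he => exact he.1
  | mul f f' _ _ ih ih' => exact ih.mul ih'

/-- The ordered product of the powers `g y ^ c y` along the list `l`. -/
def sigma (g : α → G) (l : List α) (c : α → ℕ) : G := (l.map (fun y => g y ^ c y)).prod

@[simp] theorem sigma_nil (g : α → G) (c : α → ℕ) : sigma g [] c = 1 := rfl

@[simp] theorem sigma_cons (g : α → G) (y : α) (l : List α) (c : α → ℕ) :
    sigma g (y :: l) c = g y ^ c y * sigma g l c := by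
  simp [sigma]

theorem sigma_append (g : α → G) (l l' : List α) (c : α → ℕ) :
    sigma g (l ++ l') c = sigma g l c * sigma g l' c := by
  simp [sigma]

theorem comm_sigma_lin (g : α → G) {x y : α} (hy : y ≠ x) {a : G} (ha : a ∈ D.A) (l : List α) :
    GoodZ D x (fun c => ⁅sigma g l c, a ^ c y⁆) := by
  induction l with
  | nil =>
    simpa using goodZ_one (D := D) x
  | cons z l ih =>
    have hE : ⁅g z, a⁆ ∈ D.Z := D.hAZ _ _ ha
    have h3 := goodZ_mono3 (D := D) hy z hE
    have heq : (fun c : α → ℕ => ⁅sigma g (z :: l) c, a ^ c y⁆) =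
        fun c => ⁅sigma g l c, a ^ c y⁆ * ⁅g z, a⁆ ^ (c z * c y) := by
      funext c
      rw [sigma_cons, comm_mul_left D _ _ (D.A.pow_mem ha _),
        comm_pow_left D (g z) (D.A.pow_mem ha _), comm_pow_right D (g z) ha, ← pow_mul,
        mul_comm (c y) (c z)]
    rw [heq]
    exact ih.mul h3

theorem comm_sigma_pol (g : α → G) {x : α} {f : (α → ℕ) → G} (hf : Pol D x f) (l : List α) :
    GoodZ D x (fun c => ⁅sigma g l c, f c⁆) := by
  induction hf with
  | lin y a hy ha => exact comm_sigma_lin g hy ha l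
  | cen e he =>
    have heq : (fun c : α → ℕ => ⁅sigma g l c, e c⁆) = fun _ => 1 := by
      funext c
      exact comm_central D _ (he.2 c)
    rw [heq]
    exact goodZ_one x
  | mul f f' hf hf' ih ih' =>
    have heq : (fun c : α → ℕ => ⁅sigma g l c, f c * f' c⁆) =
        fun c => ⁅sigma g l c, f c⁆ * ⁅sigma g l c, f' c⁆ := by
      funext c
      exact comm_mul_right D _ (hf'.good.1 c)
    rw [heq]
    exact ih.mul ih'

theorem pol_K (g : α → G) (u : G) {x : α} {l : List α} (hx : x ∉ l) :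
    Pol D x (fun c => ⁅sigma g l c, u⁆) := by
  induction l with
  | nil =>
    have heq : (fun c : α → ℕ => ⁅sigma g [] c, u⁆) = fun _ => 1 := by
      funext c
      simp
    rw [heq]
    exact Pol.cen _ (goodZ_one x)
  | cons y l ih =>
    have hy : y ≠ x := fun h => hx (h ▸ List.mem_cons_self)
    have hl : x ∉ l := fun h => hx (List.mem_cons_of_mem _ h)
    have hK := ih hl
    have h1 := comm_sigma_pol g hK [y]
    have hE : ⁅g y, ⁅g y, u⁆⁆ ∈ D.Z := D.hAZ _ _ (D.hcA _ _)
    have heq : (fun c : α → ℕ => ⁅sigma g (y :: l) c, u⁆) =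
        fun c => (⁅sigma g [y] c, ⁅sigma g l c, u⁆⁆ * ⁅sigma g l c, u⁆) *
          (⁅g y, u⁆ ^ c y * ⁅g y, ⁅g y, u⁆⁆ ^ (c y).choose 2) := by
      funext c
      have hs : sigma g [y] c = g y ^ c y := by simp
      rw [sigma_cons, comm_mul_three D, comm_pow_choose D (g y) u (c y), hs]
    rw [heq]
    exact Pol.mul _ _ (Pol.mul _ _ (Pol.cen _ h1) hK)
      (Pol.mul _ _ (Pol.lin y _ hy (D.hcA _ _)) (Pol.cen _ (goodZ_choose hy hE)))

/-- The vector of counts after one more letter. -/
def bump (a : α) (c : α → ℕ) : α → ℕ := fun y => c y + if a = y then 1 else 0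

theorem cnt_snoc_eq (w : List α) (a : α) : cnt (w ++ [a]) = bump a (cnt w) := by
  funext y
  exact cnt_snoc w a y

theorem sigma_bump_of_not_mem (g : α → G) {x : α} {l : List α} (hx : x ∉ l) (c : α → ℕ) :
    sigma g l (bump x c) = sigma g l c := by
  induction l with
  | nil => rfl
  | cons y l ih =>
    have hy : x ≠ y := fun h => hx (h ▸ List.mem_cons_self)
    have hl : x ∉ l := fun h => hx (List.mem_cons_of_mem _ h)
    simp [sigma_cons, ih hl, bump, hy]

/-- The deposit attached to the letter `x`. -/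
def tau (g : α → G) (l : List α) (x : α) (c : α → ℕ) : G :=
  sigma g l c * g x * (sigma g l (bump x c))⁻¹

theorem good_tau (g : α → G) {l : List α} (hl : l.Nodup) {x : α} (hx : x ∈ l) :
    Good D x (tau g l x) := by
  obtain ⟨l₁, l₂, rfl⟩ := List.append_of_mem hx
  have hx2 : x ∉ l₂ := by
    have := (List.nodup_append.1 hl).2.1
    exact (List.nodup_cons.1 this).1
  have hx1 : x ∉ l₁ := by
    intro h
    exact (List.nodup_append.1 hl).2.2 x h x List.mem_cons_self rfl
  have hK := pol_K (D := D) g (g x) hx2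
  have hC := comm_sigma_pol g hK (l₁ ++ [x])
  have heq : tau g (l₁ ++ x :: l₂) x = fun c =>
      ⁅sigma g (l₁ ++ [x]) c, ⁅sigma g l₂ c, g x⁆⁆ * ⁅sigma g l₂ c, g x⁆ := by
    funext c
    have e1 : sigma g (l₁ ++ x :: l₂) c = sigma g l₁ c * (g x ^ c x * sigma g l₂ c) := by
      rw [sigma_append, sigma_cons]
    have e2 : sigma g (l₁ ++ x :: l₂) (bump x c) =
        sigma g l₁ c * (g x ^ (c x + 1) * sigma g l₂ c) := by
      rw [sigma_append, sigma_cons, sigma_bump_of_not_mem g hx1, sigma_bump_of_not_mem g hx2]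
      simp [bump]
    have e3 : sigma g (l₁ ++ [x]) c = sigma g l₁ c * g x ^ c x := by
      rw [sigma_append]
      simp
    rw [tau, e1, e2, e3, pow_succ]
    simp only [commutatorElement_def]
    group
  rw [heq]
  exact hC.1.mul hK.good

theorem prod_dep_snoc (g : α → G) {l : List α} (hτ : ∀ x c, tau g l x c ∈ D.A) {l₀ : List α}
    (hl₀ : l₀.Nodup) (w : List α) (a : α) :
    (l₀.map (fun x => depG x (tau g l x) (w ++ [a]))).prod =
      (l₀.map (fun x => depG x (tau g l x) w)).prod *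
        if a ∈ l₀ then tau g l a (cnt w) else 1 := by
  induction l₀ with
  | nil => simp
  | cons y l₀ ih =>
    have hmem : (l₀.map (fun x => depG x (tau g l x) w)).prod ∈ D.A := by
      apply Subgroup.list_prod_mem
      intro z hz
      obtain ⟨x, _, rfl⟩ := List.mem_map.1 hz
      exact depG_mem D x (hτ x) w
    have hy := (List.nodup_cons.1 hl₀).1
    rw [List.map_cons, List.prod_cons, ih (List.nodup_cons.1 hl₀).2, List.map_cons, List.prod_cons,
      depG_snoc]
    by_cases hay : a = y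
    · subst hay
      simp only [if_true, hy, if_false, mul_one, List.mem_cons, true_or]
      rw [mul_assoc, mul_assoc, D.hAA _ (hτ a _) _ hmem]
    · by_cases hal : a ∈ l₀
      · simp [hay, hal, mul_assoc]
      · simp [hay, hal]

theorem word_formula (g : α → G) {l : List α} (hl : l.Nodup) (hall : ∀ x, x ∈ l)
    (hτ : ∀ x c, tau g l x c ∈ D.A) (w : List α) :
    (w.map g).prod = (l.map (fun x => depG x (tau g l x) w)).prod * sigma g l (cnt w) := by
  induction w using List.reverseRecOn with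
  | nil =>
    have h1 : sigma g l (cnt ([] : List α)) = 1 := by
      simp [sigma, cnt]
    have h2 : (l.map (fun x => depG x (tau g l x) ([] : List α))).prod = 1 := by
      simp
    simp [h1, h2]
  | append_singleton w a ih =>
    rw [List.map_append, List.prod_append, ih, prod_dep_snoc g hτ hl w a, cnt_snoc_eq]
    simp only [hall a, if_true, List.map_cons, List.map_nil, List.prod_cons, List.prod_nil, mul_one]
    simp only [tau, mul_assoc, inv_mul_cancel, mul_one]

/-- The map from words to a group of class at most three is determined by data whose fibres have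
generalized star height at most one. -/
theorem rec1_word (D : Tower G) (g : α → G) : Rec1 (fun w : List α => (w.map g).prod) := by
  obtain ⟨l, hl, hall⟩ := Finite.exists_univ_list α
  have hgood : ∀ x, Good D x (tau g l x) := fun x => good_tau g hl (hall x)
  haveI : NeZero (Nat.card G) := ⟨Nat.card_pos.ne'⟩
  have h1 : Rec1 (fun (w : List α) (x : α) => depG x (tau g l x) w) :=
    Rec1.pi (fun x => (hgood x).2)
  have h2 : Rec1 (fun (w : List α) (y : α) => (w.count y : ZMod (Nat.card G))) :=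
    Rec1.pi (fun y => rec1_count Nat.card_pos y)
  refine ((h1.pair h2).comp (fun q => (l.map q.1).prod *
    (l.map (fun y => g y ^ (q.2 y).val)).prod)).congr_fun ?_
  intro w
  rw [word_formula (D := D) g hl hall (fun x c => (hgood x).1 c) w]
  congr 1
  simp only [sigma, cnt, pow_eq_of_cast]

end Deposits

/-- **Main theorem.** Every language recognized by a finite nilpotent group of class at most three
has generalized star height at most one. -/
theorem class_three {α : Type u} {G : Type v} [Finite α] [Group G] [Finite G]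
    (hG : (⊤ : Subgroup G).lowerCentralSeries 3 = ⊥) (φ : FreeMonoid α →* G) (T : Set G) :
    ∃ e : GRE α, e.sh ≤ 1 ∧ ∀ w : List α, w ∈ e.lang ↔ φ (FreeMonoid.ofList w) ∈ T := by
  classical
  have h := rec1_word (towerOf hG) (fun a : α => φ (FreeMonoid.of a))
  have hφ : ∀ w : List α, φ (FreeMonoid.ofList w) = (w.map (fun a => φ (FreeMonoid.of a))).prod := by
    intro w
    induction w with
    | nil => simp
    | cons a w ih =>
      rw [List.map_cons, List.prod_cons, ← ih, FreeMonoid.ofList_cons, map_mul]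
  have : Gsh 1 (fun w : List α => φ (FreeMonoid.ofList w) ∈ T) := by
    refine (Gsh.exists_finite (ι := G) (fun b => (Gsh.const (b ∈ T)).and (h b))).congr ?_
    intro w
    rw [hφ]
    constructor
    · rintro ⟨b, hb, rfl⟩
      exact hb
    · intro hw
      exact ⟨_, hw, rfl⟩
  exact this

end Vale.Agent.Lib.P329
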