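import Vale.Agent.Lib.P329.TwoPhase
import Vale.Agent.Lib.P329.Class3

/-!
# Groups with an abelian normal subgroup whose quotient has exponent two
-/

namespace Vale.Agent.Lib.P329

universe u v w

section Metabelian

variable {α : Type u} [DecidableEq α] {G : Type v} [Group G] {Y : Type w}

open Classical in
/-- The indicator of `P c = y`. -/
noncomputable def indOf (P : (α → ℕ) → Y) (y : Y) (c : α → ℕ) : ℕ := if P c = y then 1 else 0

theorem list_prod_word_formula [Fintype α] [Fintype Y] [Finite G] (A : Subgroup G)
    (hAA : ∀ a ∈ A, ∀ b ∈ A, a * b = b * a) (g : α → G)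
    (P : (α → ℕ) → Y) (step : Y → α → Y) (hstep : ∀ c a, P (bump a c) = step (P c) a)
    (σ : Y → G) (hτ : ∀ y a, σ y * g a * (σ (step y a))⁻¹ ∈ A) (w : List α) :
    letI : CommGroup A :=
      { (inferInstance : Group A) with mul_comm := fun a b => Subtype.ext (hAA _ a.2 _ b.2) }
    (w.map g).prod = (σ (P (cnt [])))⁻¹ * ((∏ e : α × Y,
        (⟨_, hτ e.2 e.1⟩ : A) ^ depN e.1 (indOf P e.2) w : A) : G) * σ (P (cnt w)) := by
  classical
  letI : CommGroup A :=
    { (inferInstance : Group A) with mul_comm := fun a b => Subtype.ext (hAA _ a.2 _ b.2) }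
  induction w using List.reverseRecOn with
  | nil =>
    have h1 : ∀ e : α × Y, depN e.1 (indOf P e.2) ([] : List α) = 0 := fun e => rfl
    simp [h1]
  | append_singleton w a ih =>
    have hT : (∏ e : α × Y, (⟨_, hτ e.2 e.1⟩ : A) ^ depN e.1 (indOf P e.2) (w ++ [a])) =
        (∏ e : α × Y, (⟨_, hτ e.2 e.1⟩ : A) ^ depN e.1 (indOf P e.2) w) *
          (⟨_, hτ (P (cnt w)) a⟩ : A) := by
      have h2 : ∀ e : α × Y, depN e.1 (indOf P e.2) (w ++ [a]) =
          depN e.1 (indOf P e.2) w + if e = (a, P (cnt w)) then 1 else 0 := by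
        intro e
        rw [depN_snoc]
        congr 1
        obtain ⟨b, y⟩ := e
        simp only [indOf, Prod.mk.injEq]
        by_cases hab : a = b
        · subst hab
          by_cases hy : P (cnt w) = y
          · subst hy
            simp
          · have : ¬ y = P (cnt w) := fun h => hy h.symm
            simp [hy, this]
        · have : ¬ b = a := fun h => hab h.symm
          simp [hab, this]
      simp only [h2, pow_add, Finset.prod_mul_distrib]
      congr 1
      rw [Finset.prod_eq_single (a, P (cnt w))]
      · simp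
      · intro e _ he
        simp [he]
      · simp
    rw [List.map_append, List.prod_append, ih, hT, cnt_snoc_eq, hstep]
    simp only [List.map_cons, List.map_nil, List.prod_cons, List.prod_nil, mul_one]
    push_cast
    simp only [mul_assoc, inv_mul_cancel, mul_one]

/-- **Reduction for groups with an abelian subgroup.**  If all the elements
`σ y * g a * (σ (step y a))⁻¹` lie in an abelian subgroup, the fibres of the morphism to the group
have generalized star height at most one as soon as this holds for the state `P (cnt w)` and for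
the numbers of occurrences of each letter at each state, modulo the order of the group. -/
theorem rec1_of_counts [Finite α] [Finite Y] [Finite G] (A : Subgroup G)
    (hAA : ∀ a ∈ A, ∀ b ∈ A, a * b = b * a) (g : α → G)
    (P : (α → ℕ) → Y) (step : Y → α → Y) (hstep : ∀ c a, P (bump a c) = step (P c) a)
    (σ : Y → G) (hτ : ∀ y a, σ y * g a * (σ (step y a))⁻¹ ∈ A)
    (hP : Rec1 (fun w : List α => P (cnt w)))
    (hN : ∀ (a : α) (y : Y),
      Rec1 (fun w : List α => (depN a (indOf P y) w : ZMod (Nat.card G)))) :
    Rec1 (fun w : List α => (w.map g).prod) := by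
  classical
  haveI := Fintype.ofFinite α
  haveI := Fintype.ofFinite Y
  haveI : NeZero (Nat.card G) := ⟨Nat.card_pos.ne'⟩
  letI : CommGroup A :=
    { (inferInstance : Group A) with mul_comm := fun a b => Subtype.ext (hAA _ a.2 _ b.2) }
  have h1 : Rec1 (fun (w : List α) (e : α × Y) =>
      (depN e.1 (indOf P e.2) w : ZMod (Nat.card G))) := Rec1.pi (fun e => hN e.1 e.2)
  refine ((h1.pair hP).comp (fun q => (σ (P (cnt [])))⁻¹ * ((∏ e : α × Y,
      (⟨_, hτ e.2 e.1⟩ : A) ^ (q.1 e).val : A) : G) * σ q.2)).congr_fun (fun w => ?_)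
  rw [list_prod_word_formula A hAA g P step hstep σ hτ w]
  congr 3
  refine Finset.prod_congr rfl (fun e _ => ?_)
  apply Subtype.ext
  simp only [SubmonoidClass.coe_pow, Subgroup.coe_pow]
  exact pow_eq_of_cast _ _

end Metabelian

section Walsh

variable {α : Type u} [DecidableEq α]

/-- The parity vector of a count vector. -/
def parVec (c : α → ℕ) : α → ZMod 2 := fun y => (c y : ZMod 2)

theorem neg_one_pow_eq (t : ℕ) : (-1 : ℤ) ^ t = 1 - 2 * ((t % 2 : ℕ) : ℤ) := by
  rcases Nat.even_or_odd t with h | h
  · rw [h.neg_one_pow, Nat.even_iff.1 h]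
    simp
  · rw [h.neg_one_pow, Nat.odd_iff.1 h]
    simp

theorem one_add_sign (b : ZMod 2) (n : ℕ) :
    1 + (-1 : ℤ) ^ b.val * (-1) ^ n = if (n : ZMod 2) = b then 2 else 0 := by
  rcases Nat.even_or_odd n with h | h
  · have h0 : (n : ZMod 2) = 0 := (ZMod.natCast_eq_zero_iff_even).2 h
    rw [h0, h.neg_one_pow]
    revert b
    decide
  · have h0 : (n : ZMod 2) = 1 := (ZMod.natCast_eq_one_iff_odd).2 h
    rw [h0, h.neg_one_pow]
    revert b
    decide

variable [Fintype α]

/-- The sign attached to a parity vector and a set. -/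
def eps (p : α → ZMod 2) (S : Finset α) : ℤ := ∏ y ∈ S, (-1 : ℤ) ^ (p y).val

theorem walsh (p : α → ZMod 2) (c : α → ℕ) :
    (2 : ℤ) ^ Fintype.card α * ((indOf parVec p c : ℕ) : ℤ) =
      ∑ S ∈ (Finset.univ : Finset α).powerset, eps p S * (1 - 2 * ((scnt S c % 2 : ℕ) : ℤ)) := by
  classical
  have h1 : ∀ S : Finset α, eps p S * (1 - 2 * ((scnt S c % 2 : ℕ) : ℤ)) =
      ∏ y ∈ S, ((-1 : ℤ) ^ (p y).val * (-1) ^ c y) := by
    intro S
    rw [Finset.prod_mul_distrib, ← neg_one_pow_eq]
    congr 1
    exact (Finset.prod_pow_eq_pow_sum S c (-1)).symm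
  simp only [h1]
  rw [← Finset.prod_one_add, indOf]
  simp only [one_add_sign]
  by_cases h : parVec c = p
  · have h2 : ∀ y, (c y : ZMod 2) = p y := fun y => congrFun h y
    simp [h, h2, Finset.card_univ]
  · have h2 : ∃ y, (c y : ZMod 2) ≠ p y := by
      by_contra hn
      push_neg at hn
      exact h (funext hn)
    obtain ⟨y, hy⟩ := h2
    rw [if_neg h, Finset.prod_eq_zero (Finset.mem_univ y) (if_neg hy)]
    simp

end Walsh

section Counts

variable {α : Type u} [DecidableEq α] [Finite α] {M : ℕ}

theorem depN_const_mul (x : α) (k : ℕ) (m : (α → ℕ) → ℕ) (w : List α) :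
    depN x (fun c => k * m c) w = k * depN x m w := by
  induction w using List.reverseRecOn with
  | nil => rfl
  | append_singleton w a ih =>
    simp only [depN_snoc, ih]
    split_ifs <;> ring

/-- The number of occurrences of `x` at places where the parity vector of the prefix is `p`. -/
theorem rec1_parity_count (x : α) (p : α → ZMod 2) (hM : 0 < M) :
    Rec1 (fun w : List α => (depN x (indOf parVec p) w : ZMod M)) := by
  classical
  haveI := Fintype.ofFinite α
  set n := Fintype.card α with hn
  set L := 2 ^ n * M with hL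
  have hLpos : 0 < L := Nat.mul_pos (by positivity) hM
  haveI : NeZero L := ⟨hLpos.ne'⟩
  -- the periodic deposit function
  let g : ℕ → ℕ := fun t => 1 + (2 * L - 2) * (t % 2)
  have hg : ∀ t, (g t : ZMod L) = ((1 - 2 * ((t % 2 : ℕ) : ℤ) : ℤ) : ZMod L) := by
    intro t
    have h2 : ((2 * L - 2 : ℕ) : ZMod L) = -2 := by
      have : ((2 * L - 2 : ℕ) : ZMod L) + 2 = ((2 * L - 2 + 2 : ℕ) : ZMod L) := by push_cast; rfl
      rw [eq_neg_iff_add_eq_zero, this, Nat.sub_add_cancel (by omega)]
      push_cast
      simp
    simp only [g]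
    generalize t % 2 = r
    push_cast
    rw [h2]
    ring
  have hgper : ∀ t, (g (t + 2) : ZMod L) = g t := by
    intro t
    simp [g, Nat.add_mod_right]
  have hS : Rec1 (fun (w : List α) (S : Finset α) =>
      (depN x (fun c => g (scnt S c)) w : ZMod L)) :=
    Rec1.pi (fun S => rec1_dep_two S x hLpos g hgper)
  have key : ∀ w : List α, ((2 ^ n * depN x (indOf parVec p) w : ℕ) : ZMod L) =
      ∑ S ∈ (Finset.univ : Finset α).powerset,
        ((eps p S : ℤ) : ZMod L) * (depN x (fun c => g (scnt S c)) w : ZMod L) := by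
    intro w
    rw [← depN_const_mul]
    refine depN_linear _ x L _ _ _ (fun c => ?_) w
    have := congrArg (Int.cast : ℤ → ZMod L) (walsh p c)
    push_cast at this
    simp only [hg]
    push_cast
    rw [← this]
  refine (hS.comp (fun v => unscale (2 ^ n) M (∑ S ∈ (Finset.univ : Finset α).powerset,
    ((eps p S : ℤ) : ZMod L) * v S))).congr_fun (fun w => ?_)
  rw [← key w]
  exact unscale_mul (by positivity) hM _

end Counts

section Main

variable {α : Type u} [DecidableEq α] {G : Type v} [Group G]

/-- Product of powers along a list, with exponents read from a parity vector. -/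
def sigmaPar (g : α → G) (l : List α) (p : α → ZMod 2) : G :=
  (l.map (fun y => g y ^ (p y).val)).prod

/-- One more letter in a parity vector. -/
def parStep (p : α → ZMod 2) (a : α) : α → ZMod 2 := fun y => p y + if a = y then 1 else 0

theorem parVec_bump (c : α → ℕ) (a : α) : parVec (bump a c) = parStep (parVec c) a := by
  funext y
  simp only [parVec, bump, parStep]
  push_cast
  rfl

variable (A : Subgroup G) [A.Normal]

theorem sigmaPar_step (hsq : ∀ t : G, t ^ 2 ∈ A) (g : α → G) {l : List α} (hl : l.Nodup)
    (p : α → ZMod 2) (a : α) (ha : a ∈ l) :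
    (QuotientGroup.mk (sigmaPar g l (parStep p a)) : G ⧸ A) =
      QuotientGroup.mk (sigmaPar g l p) * QuotientGroup.mk (g a) := by
  have hsq' : ∀ t : G ⧸ A, t * t = 1 := by
    intro t
    obtain ⟨u, rfl⟩ := QuotientGroup.mk_surjective t
    rw [← QuotientGroup.mk_mul, ← pow_two, QuotientGroup.eq_one_iff]
    exact hsq u
  have hinv : ∀ t : G ⧸ A, t⁻¹ = t := fun t => inv_eq_of_mul_eq_one_left (hsq' t)
  have hcomm : ∀ t u : G ⧸ A, t * u = u * t := by
    intro t u
    have := hinv (t * u)
    rw [mul_inv_rev, hinv, hinv] at this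
    exact this.symm
  induction l with
  | nil => simp at ha
  | cons y l ih =>
    have hy := (List.nodup_cons.1 hl).1
    have hl' := (List.nodup_cons.1 hl).2
    by_cases hay : a = y
    · subst hay
      have hrest : sigmaPar g l (parStep p a) = sigmaPar g l p := by
        unfold sigmaPar
        congr 1
        refine List.map_congr_left (fun z hz => ?_)
        have : a ≠ z := fun h => hy (h ▸ hz)
        simp [parStep, this]
      simp only [sigmaPar, List.map_cons, List.prod_cons] at hrest ⊢
      rw [QuotientGroup.mk_mul, QuotientGroup.mk_mul, hrest, mul_assoc, hcomm _ (QuotientGroup.mk (g a)),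
        ← mul_assoc]
      congr 1
      simp only [parStep, if_true, QuotientGroup.mk_pow]
      generalize (QuotientGroup.mk (g a) : G ⧸ A) = t at *
      have h2 := hsq' t
      generalize p a = b
      revert b
      intro b
      fin_cases b
      · change t ^ ((0 : ZMod 2) + 1).val = t ^ (0 : ZMod 2).val * t
        have h3 : ((0 : ZMod 2) + 1).val = 1 := by decide
        have h4 : (0 : ZMod 2).val = 0 := by decide
        rw [h3, h4, pow_zero, pow_one, one_mul]
      · change t ^ ((1 : ZMod 2) + 1).val = t ^ (1 : ZMod 2).val * t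
        have h3 : ((1 : ZMod 2) + 1).val = 0 := by decide
        have h4 : (1 : ZMod 2).val = 1 := by decide
        rw [h3, h4, pow_zero, pow_one, h2]
    · have hal : a ∈ l := by
        rcases List.mem_cons.1 ha with h | h
        · exact absurd h hay
        · exact h
      have hrest := ih hl' hal
      simp only [sigmaPar, List.map_cons, List.prod_cons] at hrest ⊢
      rw [QuotientGroup.mk_mul, QuotientGroup.mk_mul, hrest, mul_assoc]
      congr 2
      simp [parStep, hay]

variable [Finite α] [Finite G]

/-- The map to a finite group with an abelian normal subgroup `A` with `G / A` of exponent two. -/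
theorem rec1_exp_two (hAA : ∀ a ∈ A, ∀ b ∈ A, a * b = b * a) (hsq : ∀ t : G, t ^ 2 ∈ A) (g : α → G) :
    Rec1 (fun w : List α => (w.map g).prod) := by
  obtain ⟨l, hl, hall⟩ := Finite.exists_univ_list α
  refine rec1_of_counts A hAA g parVec parStep parVec_bump (sigmaPar g l) ?_ ?_ ?_
  · intro y a
    rw [← QuotientGroup.eq_one_iff, QuotientGroup.mk_mul, QuotientGroup.mk_mul, QuotientGroup.mk_inv,
      sigmaPar_step A hsq g hl y a (hall a)]
    simp
  · refine (Rec1.pi (fun y => rec1_count (M := 2) (by norm_num) y)).congr_fun (fun w => ?_)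
    rfl
  · intro a y
    exact rec1_parity_count a y Nat.card_pos

/-- **Main theorem.**  Every language recognized by a finite group `G` having an abelian normal
subgroup `A` with `G / A` of exponent at most two has generalized star height at most one. -/
theorem abelian_by_exp_two {α : Type u} {G : Type v} [Finite α] [Group G] [Finite G]
    (A : Subgroup G) [A.Normal] (hAA : ∀ a ∈ A, ∀ b ∈ A, a * b = b * a)
    (hsq : ∀ t : G, t ^ 2 ∈ A) (φ : FreeMonoid α →* G) (T : Set G) :
    ∃ e : GRE α, e.sh ≤ 1 ∧ ∀ w : List α, w ∈ e.lang ↔ φ (FreeMonoid.ofList w) ∈ T := by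
  classical
  have h := rec1_exp_two A hAA hsq (fun a : α => φ (FreeMonoid.of a))
  have hφ : ∀ w : List α, φ (FreeMonoid.ofList w) = (w.map (fun a => φ (FreeMonoid.of a))).prod := by
    intro w
    induction w with
    | nil => simp
    | cons a w ih =>
      rw [List.map_cons, List.prod_cons, ← ih, FreeMonoid.ofList_cons, map_mul]
  have : Gsh 1 (fun w : List α => φ (FreeMonoid.ofList w) ∈ T) := by
    refine (Gsh.exists_finite (ι := G) (fun b => (Gsh.const (b ∈ T)).and (h b))).congr ?_
    intro w
    rw [hφ]
    constructor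
    · rintro ⟨b, hb, rfl⟩
      exact hb
    · intro hw
      exact ⟨_, hw, rfl⟩
  exact this

end Main

end Vale.Agent.Lib.P329
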