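import Vale.Agent.Lib.P329.Basic

/-!
# Odometer automata

On `ZMod (N * M)`, letters of `S` act as `t ↦ t + 1`, letters of `X` act as `t ↦ t + N` when `N`
divides `t` and trivially otherwise.  This automaton is partially ordered away from the state `0`,
so all its languages have generalized star height at most one.  Its states record the number of
letters of `S` together with the number of occurrences of letters of `X` at places where the number
of letters of `S` read before lies in a prescribed residue class modulo `N`.
-/

namespace Vale.Agent.Lib.P329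

universe u

variable {α : Type u} [DecidableEq α]

/-- The vector of letter counts of a word. -/
def cnt (w : List α) : α → ℕ := fun y => w.count y

@[simp] theorem cnt_reverse (w : List α) : cnt w.reverse = cnt w := by
  funext y
  simp [cnt]

theorem cnt_snoc (w : List α) (a y : α) : cnt (w ++ [a]) y = cnt w y + if a = y then 1 else 0 := by
  simp [cnt, List.count_append, List.count_singleton]

/-- Helper for `depN`, on reversed words. -/
def depRev (x : α) (m : (α → ℕ) → ℕ) : List α → ℕ
  | [] => 0
  | a :: r => depRev x m r + if a = x then m (cnt r) else 0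

/-- The sum of `m (count vector of the part of w before the occurrence)` over all occurrences of the
letter `x` in `w`. -/
def depN (x : α) (m : (α → ℕ) → ℕ) (w : List α) : ℕ := depRev x m w.reverse

@[simp] theorem depN_nil (x : α) (m : (α → ℕ) → ℕ) : depN x m [] = 0 := rfl

theorem depN_snoc (x : α) (m : (α → ℕ) → ℕ) (w : List α) (a : α) :
    depN x m (w ++ [a]) = depN x m w + if a = x then m (cnt w) else 0 := by
  simp [depN, depRev]

theorem depN_add (x : α) (m m' : (α → ℕ) → ℕ) (w : List α) :
    depN x (fun c => m c + m' c) w = depN x m w + depN x m' w := by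
  induction w using List.reverseRecOn with
  | nil => rfl
  | append_singleton w a ih =>
    simp only [depN_snoc, ih]
    split_ifs <;> ring

/-- Linearity of `depN` modulo `M`. -/
theorem depN_linear {ι : Type*} (s : Finset ι) (x : α) (M : ℕ) (m : (α → ℕ) → ℕ)
    (k : ι → ZMod M) (m' : ι → (α → ℕ) → ℕ)
    (h : ∀ c, (m c : ZMod M) = ∑ r ∈ s, k r * (m' r c : ZMod M)) (w : List α) :
    (depN x m w : ZMod M) = ∑ r ∈ s, k r * (depN x (m' r) w : ZMod M) := by
  induction w using List.reverseRecOn with
  | nil => simp
  | append_singleton w a ih =>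
    by_cases ha : a = x
    · simp only [depN_snoc, ha, if_true, Nat.cast_add, ih, h, mul_add, Finset.sum_add_distrib]
    · simp only [depN_snoc, ha, if_false, Nat.cast_add, ih, Nat.cast_zero, add_zero]

section Odo

variable (S X : Finset α) (N M : ℕ)

/-- The transition function of the odometer automaton. -/
def odo (t : ZMod (N * M)) (a : α) : ZMod (N * M) :=
  if a ∈ S then t + 1 else if a ∈ X ∧ N ∣ t.val then t + (N : ZMod (N * M)) else t

variable {N M}

theorem val_add_of_ne {L : ℕ} [NeZero L] (q : ZMod L) (k : ℕ) (hk : q.val + k ≤ L)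
    (hq : q + (k : ZMod L) ≠ 0) : (q + (k : ZMod L)).val = q.val + k := by
  have h1 : q + (k : ZMod L) = ((q.val + k : ℕ) : ZMod L) := by
    push_cast
    rw [ZMod.natCast_zmod_val]
  rcases hk.lt_or_eq with h | h
  · rw [h1, ZMod.val_natCast, Nat.mod_eq_of_lt h]
  · exfalso
    apply hq
    rw [h1, h]
    exact ZMod.natCast_self L

theorem odo_po (hN : 0 < N) (hM : 0 < M) (q : ZMod (N * M)) (a : α) (hq : q ≠ 0)
    (hq' : odo S X N M q a ≠ 0) : odo S X N M q a = q ∨ q.val < (odo S X N M q a).val := by
  haveI : NeZero (N * M) := ⟨(Nat.mul_pos hN hM).ne'⟩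
  unfold odo at hq' ⊢
  split_ifs at hq' ⊢ with h1 h2
  · right
    have hv := ZMod.val_lt q
    have := val_add_of_ne q 1 (by omega) (by simpa using hq')
    simp only [Nat.cast_one] at this
    omega
  · right
    obtain ⟨_, j, hj⟩ := h2
    have hv := ZMod.val_lt q
    have hjM : j < M := by
      rw [hj] at hv
      exact lt_of_mul_lt_mul_left hv (Nat.zero_le N)
    have hle : q.val + N ≤ N * M := by
      rw [hj]
      calc N * j + N = N * (j + 1) := by ring
        _ ≤ N * M := Nat.mul_le_mul_left N hjM
    have := val_add_of_ne q N hle hq'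
    omega
  · left; rfl

/-- All the languages of the odometer automaton have generalized star height at most one. -/
theorem rec1_odo [Finite α] (hN : 0 < N) (hM : 0 < M) (p : ZMod (N * M)) :
    Rec1 (run (odo S X N M) p) := by
  haveI : NeZero (N * M) := ⟨(Nat.mul_pos hN hM).ne'⟩
  intro q
  exact gsh_run (c := (0 : ZMod (N * M))) ZMod.val
    (fun q a hq hq' => odo_po S X hN hM q a hq hq') p q

/-- Number of letters of `S`. -/
def scnt (S : Finset α) (c : α → ℕ) : ℕ := ∑ y ∈ S, c y

theorem scnt_snoc (w : List α) (a : α) :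
    scnt S (cnt (w ++ [a])) = scnt S (cnt w) + if a ∈ S then 1 else 0 := by
  simp only [scnt, cnt_snoc, Finset.sum_add_distrib, Finset.sum_ite_eq]

/-- The indicator of `N ∣ p + (number of letters of S)`. -/
def hit (S : Finset α) (N p : ℕ) (c : α → ℕ) : ℕ := if N ∣ p + scnt S c then 1 else 0

theorem dvd_val_cast (hN : 0 < N) (hM : 0 < M) (T : ℕ) :
    N ∣ ((T : ℕ) : ZMod (N * M)).val ↔ N ∣ T := by
  haveI : NeZero (N * M) := ⟨(Nat.mul_pos hN hM).ne'⟩
  rw [ZMod.val_natCast]
  exact Nat.dvd_mod_iff (Dvd.intro M rfl)

/-- The state of the odometer automaton. -/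
theorem run_odo (hN : 0 < N) (hM : 0 < M) (hSX : Disjoint S X) (p : ℕ) (w : List α) :
    run (odo S X N M) (p : ZMod (N * M)) w =
      ((p + scnt S (cnt w) + N * ∑ x ∈ X, depN x (hit S N p) w : ℕ) : ZMod (N * M)) := by
  induction w using List.reverseRecOn with
  | nil => simp [scnt, cnt]
  | append_singleton w a ih =>
    rw [run_append, ih]
    have hsum : ∑ x ∈ X, depN x (hit S N p) (w ++ [a]) =
        ∑ x ∈ X, depN x (hit S N p) w + if a ∈ X then hit S N p (cnt w) else 0 := by
      simp only [depN_snoc, Finset.sum_add_distrib, Finset.sum_ite_eq]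
    rw [scnt_snoc, hsum]
    simp only [run_cons, run_nil, odo]
    by_cases haS : a ∈ S
    · have haX : a ∉ X := Finset.disjoint_left.1 hSX haS
      simp only [haS, haX, if_true, if_false]
      push_cast
      ring
    · simp only [haS, if_false]
      set T := p + scnt S (cnt w) + N * ∑ x ∈ X, depN x (hit S N p) w with hT
      have hdvd : N ∣ ((T : ℕ) : ZMod (N * M)).val ↔ N ∣ p + scnt S (cnt w) := by
        rw [dvd_val_cast hN hM, hT]
        exact (Nat.dvd_add_iff_left (Dvd.intro _ rfl)).symm
      by_cases haX : a ∈ X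
      · simp only [haX, true_and, if_true, hdvd, hit]
        split_ifs with h
        · push_cast
          rw [hT]
          push_cast
          ring
        · push_cast
          rw [hT]
          push_cast
          ring
      · simp only [haX, false_and, if_false]
        push_cast
        rw [hT]
        push_cast
        ring

/-- The number of letters of `S` modulo `L`, via the odometer with `X = ∅`. -/
theorem rec1_scnt [Finite α] (S : Finset α) {L : ℕ} (hL : 0 < L) :
    Rec1 (fun w : List α => ((scnt S (cnt w) : ℕ) : ZMod L)) := by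
  haveI : NeZero (1 * L) := ⟨by simp [hL.ne']⟩
  have h := rec1_odo (N := 1) (M := L) S (∅ : Finset α) one_pos hL 0
  have hform : ∀ w : List α, run (odo S ∅ 1 L) (0 : ZMod (1 * L)) w =
      ((scnt S (cnt w) : ℕ) : ZMod (1 * L)) := by
    intro w
    have := run_odo (N := 1) (M := L) S (∅ : Finset α) one_pos hL (Finset.disjoint_empty_right S) 0 w
    simpa using this
  haveI : NeZero L := ⟨hL.ne'⟩
  refine ((h.comp (fun t : ZMod (1 * L) => ((t.val : ℕ) : ZMod L)))).congr_fun ?_
  intro w
  rw [hform, ZMod.val_natCast, one_mul, ZMod.natCast_mod]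

/-- Extraction of the upper digit. -/
def unscale (N M : ℕ) (t : ZMod (N * M)) : ZMod M := ((t.val / N : ℕ) : ZMod M)

theorem unscale_mul (hN : 0 < N) (hM : 0 < M) (D : ℕ) :
    unscale N M ((N * D : ℕ) : ZMod (N * M)) = (D : ZMod M) := by
  haveI : NeZero (N * M) := ⟨(Nat.mul_pos hN hM).ne'⟩
  rw [unscale, ZMod.val_natCast, Nat.mul_mod_mul_left, Nat.mul_div_cancel_left _ hN,
    ZMod.natCast_mod]

theorem rec1_hit [Finite α] (x : α) (hx : x ∉ S) (hN : 0 < N) (hM : 0 < M) (p : ℕ) :
    Rec1 (fun w : List α => (depN x (hit S N p) w : ZMod M)) := by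
  haveI : NeZero (N * M) := ⟨(Nat.mul_pos hN hM).ne'⟩
  have h1 := rec1_odo (N := N) (M := M) S {x} hN hM (p : ZMod (N * M))
  have h2 := rec1_scnt S (L := N * M) (Nat.mul_pos hN hM)
  refine ((h1.pair h2).comp (fun q => unscale N M (q.1 - q.2 - p))).congr_fun ?_
  intro w
  rw [run_odo S {x} hN hM (Finset.disjoint_singleton_right.2 hx) p w]
  simp only [Finset.sum_singleton]
  have : ((p + scnt S (cnt w) + N * depN x (hit S N p) w : ℕ) : ZMod (N * M)) -
      ((scnt S (cnt w) : ℕ) : ZMod (N * M)) - (p : ZMod (N * M)) =
      ((N * depN x (hit S N p) w : ℕ) : ZMod (N * M)) := by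
    push_cast
    ring
  rw [this, unscale_mul hN hM]

theorem periodic_mul {g : ℕ → ℕ} (hg : ∀ t, (g (t + N) : ZMod M) = g t) (s j : ℕ) :
    (g (s + N * j) : ZMod M) = g s := by
  induction j with
  | zero => simp
  | succ j ih => rw [← ih, Nat.mul_succ, ← Nat.add_assoc, hg]

theorem periodic_mod {g : ℕ → ℕ} (hg : ∀ t, (g (t + N) : ZMod M) = g t) (t : ℕ) :
    (g (t % N) : ZMod M) = g t := by
  conv_rhs => rw [← Nat.mod_add_div t N]
  exact (periodic_mul hg _ _).symm

theorem dvd_sub_add_iff (hN : 0 < N) {r : ℕ} (hr : r < N) (t : ℕ) :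
    N ∣ (N - r) + t ↔ r = t % N := by
  have hs : t % N < N := Nat.mod_lt t hN
  have ht : (N - r) + t = (N - r + t % N) + N * (t / N) := by
    have := Nat.mod_add_div t N
    omega
  rw [ht, Nat.dvd_add_left (Dvd.intro _ rfl)]
  constructor
  · intro h
    have := Nat.eq_of_dvd_of_lt_two_mul (by omega) h (by omega)
    omega
  · intro h
    rw [← h, Nat.sub_add_cancel hr.le]

theorem indicator_sum (hN : 0 < N) {g : ℕ → ℕ} (hg : ∀ t, (g (t + N) : ZMod M) = g t) (t : ℕ) :
    (g t : ZMod M) = ∑ r ∈ Finset.range N,
      (g r : ZMod M) * ((if N ∣ (N - r) + t then 1 else 0 : ℕ) : ZMod M) := by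
  rw [Finset.sum_eq_single (t % N)]
  · have h1 : N ∣ (N - t % N) + t := (dvd_sub_add_iff hN (Nat.mod_lt t hN) t).2 rfl
    rw [if_pos h1, periodic_mod hg]
    simp
  · intro r hr hne
    rw [if_neg, Nat.cast_zero, mul_zero]
    rw [dvd_sub_add_iff hN (Finset.mem_range.1 hr) t]
    exact hne
  · intro h
    exact absurd (Finset.mem_range.2 (Nat.mod_lt t hN)) h

/-- **Core statement.** For a letter `x` outside `S`, the sum over the occurrences of `x` of a
function of the number of letters of `S` read so far, periodic modulo `N` and taken in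
`ℤ / M ℤ`, has all its fibres of generalized star height at most one. -/
theorem rec1_dep [Finite α] (x : α) (hx : x ∉ S) (hN : 0 < N) (hM : 0 < M) (g : ℕ → ℕ)
    (hg : ∀ t, (g (t + N) : ZMod M) = g t) :
    Rec1 (fun w : List α => (depN x (fun c => g (scnt S c)) w : ZMod M)) := by
  haveI : NeZero M := ⟨hM.ne'⟩
  have key : ∀ w : List α, (depN x (fun c => g (scnt S c)) w : ZMod M) =
      ∑ r ∈ Finset.range N, (g r : ZMod M) * (depN x (hit S N (N - r)) w : ZMod M) :=
    fun w => depN_linear _ x M _ _ _ (fun c => indicator_sum hN hg _) w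
  have hF : Rec1 (fun (w : List α) (i : Fin N) => (depN x (hit S N (N - i)) w : ZMod M)) :=
    Rec1.pi (fun i => rec1_hit S x hx hN hM _)
  refine (hF.comp (fun v => ∑ i : Fin N, (g i : ZMod M) * v i)).congr_fun ?_
  intro w
  rw [key w]
  exact Fin.sum_univ_eq_sum_range
    (fun r => (g r : ZMod M) * (depN x (hit S N (N - r)) w : ZMod M)) N

end Odo

section Monomials

variable {M : ℕ} [Finite α]

theorem scnt_singleton (y : α) (c : α → ℕ) : scnt {y} c = c y := by simp [scnt]

theorem scnt_pair {y z : α} (h : z ≠ y) (c : α → ℕ) : scnt {z, y} c = c z + c y := by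
  simp [scnt, Finset.sum_pair h]

theorem choose_two_add (a b : ℕ) : (a + b).choose 2 = a.choose 2 + b.choose 2 + a * b := by
  induction b with
  | zero => simp
  | succ b ih =>
    rw [← Nat.add_assoc, Nat.choose_succ_succ' (a + b) 1, Nat.choose_succ_succ' b 1, ih]
    simp only [Nat.choose_one_right]
    ring

theorem choose_two_double (M : ℕ) : (2 * M).choose 2 = M * (2 * M - 1) := by
  rw [Nat.choose_two_right]
  rw [Nat.mul_assoc, Nat.mul_div_cancel_left _ (by norm_num : 0 < 2)]

theorem choose_two_periodic (t : ℕ) :
    (((t + 2 * M).choose 2 : ℕ) : ZMod M) = ((t.choose 2 : ℕ) : ZMod M) := by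
  rw [choose_two_add, choose_two_double]
  push_cast
  simp

theorem rec1_count (hM : 0 < M) (y : α) : Rec1 (fun w : List α => (w.count y : ZMod M)) := by
  refine (rec1_scnt {y} hM).congr_fun ?_
  intro w
  rw [scnt_singleton]
  rfl

theorem rec1_count_choose (hM : 0 < M) (y : α) :
    Rec1 (fun w : List α => ((w.count y).choose 2 : ZMod M)) := by
  haveI : NeZero (2 * M) := ⟨by omega⟩
  refine ((rec1_count (M := 2 * M) (by omega) y).comp
    (fun t => ((t.val.choose 2 : ℕ) : ZMod M))).congr_fun ?_
  intro w
  rw [ZMod.val_natCast]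
  exact periodic_mod (N := 2 * M) (g := fun t => t.choose 2) choose_two_periodic _

theorem rec1_mono1 (hM : 0 < M) {x y : α} (hy : y ≠ x) :
    Rec1 (fun w : List α => (depN x (fun c => c y) w : ZMod M)) := by
  have h := rec1_dep {y} x (by simpa using hy.symm) hM hM (fun t => t) (fun t => by simp)
  simpa only [scnt_singleton] using h

theorem rec1_mono2 (hM : 0 < M) {x y : α} (hy : y ≠ x) :
    Rec1 (fun w : List α => (depN x (fun c => (c y).choose 2) w : ZMod M)) := by
  have h := rec1_dep (N := 2 * M) {y} x (by simpa using hy.symm) (by omega) hM (fun t => t.choose 2)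
    choose_two_periodic
  simpa only [scnt_singleton] using h

/-- The swap identity moving the own count of the letter `x` away. -/
theorem swap_identity {x y : α} (hy : y ≠ x) (w : List α) :
    depN x (fun c => c x * c y) w + depN y (fun c => (c x).choose 2) w =
      (w.count x).choose 2 * w.count y := by
  induction w using List.reverseRecOn with
  | nil => simp
  | append_singleton w a ih =>
    rw [depN_snoc, depN_snoc, List.count_append, List.count_append]
    by_cases hax : a = x
    · subst hax
      have h1 : List.count a [a] = 1 := by simp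
      have h2 : List.count y [a] = 0 := by simp [hy.symm]
      rw [h1, h2, if_pos rfl, if_neg hy.symm, Nat.choose_succ_succ' (w.count a) 1]
      simp only [Nat.choose_one_right, cnt]
      nlinarith [ih]
    · by_cases hay : a = y
      · subst hay
        have h1 : List.count x [a] = 0 := by simp [hax]
        have h2 : List.count a [a] = 1 := by simp
        rw [h1, h2, if_neg hax, if_pos rfl]
        simp only [cnt, Nat.add_zero]
        nlinarith [ih]
      · have h1 : List.count x [a] = 0 := by simp [hax]
        have h2 : List.count y [a] = 0 := by simp [hay]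
        rw [h1, h2, if_neg hax, if_neg hay]
        simpa using ih

theorem rec1_mono3 (hM : 0 < M) {x y : α} (hy : y ≠ x) (z : α) :
    Rec1 (fun w : List α => (depN x (fun c => c z * c y) w : ZMod M)) := by
  haveI : NeZero M := ⟨hM.ne'⟩
  by_cases hzy : z = y
  · subst hzy
    have h := rec1_dep {z} x (by simpa using hy.symm) hM hM (fun t => t * t) (fun t => by simp)
    simpa only [scnt_singleton] using h
  by_cases hzx : z = x
  · subst hzx
    refine (((rec1_count_choose hM z).pair (rec1_count hM y)).pair
      (rec1_mono2 (M := M) hM hy.symm |>.comp id)).comp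
      (fun q => q.1.1 * q.1.2 - q.2) |>.congr_fun ?_
    intro w
    have := swap_identity hy w
    have h2 : ((depN z (fun c => c z * c y) w : ℕ) : ZMod M) +
        ((depN y (fun c => (c z).choose 2) w : ℕ) : ZMod M) =
        (((w.count z).choose 2 : ℕ) : ZMod M) * ((w.count y : ℕ) : ZMod M) := by
      exact_mod_cast congrArg (Nat.cast : ℕ → ZMod M) this
    simp only [id]
    rw [← h2]
    ring
  · have hS : x ∉ ({z, y} : Finset α) := by
      simp only [Finset.mem_insert, Finset.mem_singleton, not_or]
      exact ⟨fun h => hzx h.symm, fun h => hy h.symm⟩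
    have h1 := rec1_dep (N := 2 * M) {z, y} x hS (by omega) hM (fun t => t.choose 2)
      choose_two_periodic
    have h2 := rec1_mono2 (M := M) (x := x) (y := z) hM hzx
    have h3 := rec1_mono2 (M := M) (x := x) (y := y) hM hy
    refine ((h1.pair h2).pair h3).comp (fun q => q.1.1 - q.1.2 - q.2) |>.congr_fun ?_
    intro w
    have e : depN x (fun c => (scnt {z, y} c).choose 2) w =
        depN x (fun c => (c z).choose 2) w + depN x (fun c => (c y).choose 2) w +
          depN x (fun c => c z * c y) w := by
      rw [← depN_add, ← depN_add]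
      congr 1
      funext c
      rw [scnt_pair hzy, choose_two_add]
    simp only
    rw [e]
    push_cast
    ring

end Monomials

end Vale.Agent.Lib.P329
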