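import Vale.Agent.Lib.P329.CF
import Vale.Agent.Lib.P329.Odometer

/-!
# The two-phase automaton

Let `x` be a letter of the set `S`.  The automaton on `Bool × ZMod L` has a phase bit, flipped by
the letters of `S`; when the bit is on, the letter `x` adds one to the counter and the other letters
of `S` subtract one.  It is counter-free away from `(false, 0)`, although it is not partially
ordered.  It gives the number of occurrences of `x` after an odd number of letters of `S`.
-/

namespace Vale.Agent.Lib.P329

universe u

variable {α : Type u} [DecidableEq α] (S : Finset α) (x : α)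

/-- The new phase. -/
def phaseStep (b : Bool) (a : α) : Bool := if a ∈ S then !b else b

/-- The signed step. -/
def mu (a : α) : ℤ := if a = x then 1 else -1

/-- The increment of the counter. -/
def inc (b : Bool) (a : α) : ℤ := if a ∈ S ∧ b = true then mu x a else 0

/-- The final phase. -/
def flip : Bool → List α → Bool
  | b, [] => b
  | b, a :: w => flip (phaseStep S b a) w

/-- The net change of the counter. -/
def net : Bool → List α → ℤ
  | _, [] => 0
  | b, a :: w => inc S x b a + net (phaseStep S b a) w

/-- The transition function of the two-phase automaton. -/
def twoPhase (L : ℕ) (q : Bool × ZMod L) (a : α) : Bool × ZMod L :=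
  (phaseStep S q.1 a, q.2 + ((inc S x q.1 a : ℤ) : ZMod L))

variable {S x}

@[simp] theorem flip_nil (b : Bool) : flip S b ([] : List α) = b := rfl
@[simp] theorem flip_cons (b : Bool) (a : α) (w : List α) :
    flip S b (a :: w) = flip S (phaseStep S b a) w := rfl
@[simp] theorem net_nil (b : Bool) : net S x b ([] : List α) = 0 := rfl
@[simp] theorem net_cons (b : Bool) (a : α) (w : List α) :
    net S x b (a :: w) = inc S x b a + net S x (phaseStep S b a) w := rfl

theorem flip_append (b : Bool) (u v : List α) : flip S b (u ++ v) = flip S (flip S b u) v := by
  induction u generalizing b with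
  | nil => rfl
  | cons a u ih => exact ih _

theorem net_append (b : Bool) (u v : List α) :
    net S x b (u ++ v) = net S x b u + net S x (flip S b u) v := by
  induction u generalizing b with
  | nil => simp
  | cons a u ih =>
    simp only [List.cons_append, net_cons, ih, flip_cons]
    ring

theorem flip_not (b : Bool) (w : List α) : flip S (!b) w = !(flip S b w) := by
  induction w generalizing b with
  | nil => rfl
  | cons a w ih =>
    simp only [flip_cons, phaseStep]
    split_ifs
    · exact ih _
    · exact ih _

theorem run_twoPhase (L : ℕ) (b : Bool) (s : ZMod L) (w : List α) :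
    run (twoPhase S x L) (b, s) w = (flip S b w, s + ((net S x b w : ℤ) : ZMod L)) := by
  induction w generalizing b s with
  | nil => simp
  | cons a w ih =>
    simp only [run_cons, twoPhase, ih, flip_cons, net_cons]
    push_cast
    simp only [add_assoc]

/-- The parity relation between the two net changes. -/
theorem net_parity (b : Bool) (w : List α) :
    (net S x b w + net S x (!b) w) % 2 = if flip S b w = b then 0 else 1 := by
  induction w generalizing b with
  | nil => simp
  | cons a w ih =>
    rw [net_cons, net_cons, flip_cons]
    by_cases ha : a ∈ S
    · have hp : phaseStep S b a = !b := by simp [phaseStep, ha]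
      have hp' : phaseStep S (!b) a = b := by simp [phaseStep, ha]
      rw [hp, hp']
      have h := ih (!b)
      simp only [Bool.not_not] at h
      have hinc : inc S x b a + inc S x (!b) a = mu x a := by
        cases b <;> simp [inc, ha]
      have hmu : mu x a = 1 ∨ mu x a = -1 := by
        unfold mu
        split_ifs <;> simp
      have hflip : (flip S (!b) w = b) ↔ ¬ (flip S (!b) w = !b) := by
        cases b <;> simp
      by_cases h2 : flip S (!b) w = !b
      · rw [if_pos h2] at h
        rw [if_neg (hflip.not.2 (not_not.2 h2))]
        generalize net S x (!b) w = A at *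
        generalize net S x b w = B at *
        generalize inc S x b a = P at *
        generalize inc S x (!b) a = Q at *
        generalize mu x a = R at *
        rcases hmu with h3 | h3 <;> omega
      · rw [if_neg h2] at h
        rw [if_pos (hflip.2 h2)]
        generalize net S x (!b) w = A at *
        generalize net S x b w = B at *
        generalize inc S x b a = P at *
        generalize inc S x (!b) a = Q at *
        generalize mu x a = R at *
        rcases hmu with h3 | h3 <;> omega
    · have hp : phaseStep S b a = b := by simp [phaseStep, ha]
      have hp' : phaseStep S (!b) a = !b := by simp [phaseStep, ha]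
      have h1 : inc S x b a = 0 := by simp [inc, ha]
      have h2 : inc S x (!b) a = 0 := by simp [inc, ha]
      rw [hp, hp', h1, h2, zero_add, zero_add]
      exact ih b

section Bound

variable {L : ℕ} [NeZero L]

theorem val_add_one_of_ne (s : ZMod L) (h : s + 1 ≠ 0) : (s + 1).val = s.val + 1 := by
  have hv := ZMod.val_lt s
  have := val_add_of_ne s 1 (by omega) (by simpa using h)
  simpa using this

theorem val_sub_one_of_ne (s : ZMod L) (h : s ≠ 0) (h' : s - 1 ≠ 0) : (s - 1).val + 1 = s.val := by
  have := val_add_one_of_ne (s - 1) (by simpa using h)
  rw [sub_add_cancel] at this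
  exact this.symm

/-- While avoiding the base state, the counter stays between two multiples of `L`. -/
theorem net_interior {b : Bool} {s : ZMod L} {w : List α} (hs : s ≠ 0)
    (h : Avoid (twoPhase S x L) (false, (0 : ZMod L)) (b, s) w) :
    -(s.val : ℤ) < net S x b w ∧ net S x b w < (L : ℤ) - s.val := by
  induction w generalizing b s with
  | nil =>
    have : 0 < s.val := Nat.pos_of_ne_zero (by simpa using hs)
    have h2 := ZMod.val_lt s
    simp only [net_nil]
    omega
  | cons a w ih =>
    have h2 := h.2
    simp only [net_cons]
    by_cases ha : a ∈ S
    · cases b with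
      | false =>
        have h3 : twoPhase S x L (false, s) a = (true, s) := by
          simp [twoPhase, phaseStep, inc, ha]
        rw [h3] at h2
        have := ih hs h2
        simpa [inc, ha, phaseStep] using this
      | true =>
        have h3 : twoPhase S x L (true, s) a = (false, s + ((mu x a : ℤ) : ZMod L)) := by
          simp [twoPhase, phaseStep, inc, ha]
        rw [h3] at h2
        have hne : s + ((mu x a : ℤ) : ZMod L) ≠ 0 := by
          intro h0
          apply h2.ne
          rw [h0]
        have := ih hne h2
        have hinc : inc S x true a = mu x a := by simp [inc, ha]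
        have hph : phaseStep S true a = false := by simp [phaseStep, ha]
        rw [hinc, hph]
        by_cases hax : a = x
        · have hmu : mu x a = 1 := by simp [mu, hax]
          rw [hmu] at hne this ⊢
          have hne' : s + 1 ≠ 0 := by simpa using hne
          have hv := val_add_one_of_ne s hne'
          have : (s + ((1 : ℤ) : ZMod L)).val = s.val + 1 := by simpa using hv
          omega
        · have hmu : mu x a = -1 := by simp [mu, hax]
          rw [hmu] at hne this ⊢
          have hne' : s - 1 ≠ 0 := by simpa [sub_eq_add_neg] using hne
          have hv := val_sub_one_of_ne s hs hne'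
          have : (s + ((-1 : ℤ) : ZMod L)).val + 1 = s.val := by
            simpa [sub_eq_add_neg] using hv
          omega
    · have h3 : twoPhase S x L (b, s) a = (b, s) := by
        simp [twoPhase, phaseStep, inc, ha]
      rw [h3] at h2
      have := ih hs h2
      simpa [inc, ha, phaseStep] using this

theorem net_bound (hL : 2 ≤ L) {b : Bool} {s : ZMod L} {w : List α}
    (h : Avoid (twoPhase S x L) (false, (0 : ZMod L)) (b, s) w) :
    |net S x b w| ≤ L := by
  by_cases hs : s = 0
  · subst hs
    cases b with
    | false => exact absurd rfl h.ne
    | true =>
      induction w with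
      | nil => simp
      | cons a w ih =>
        have h2 := h.2
        simp only [net_cons]
        by_cases ha : a ∈ S
        · have h3 : twoPhase S x L (true, (0 : ZMod L)) a = (false, ((mu x a : ℤ) : ZMod L)) := by
            simp [twoPhase, phaseStep, inc, ha]
          rw [h3] at h2
          have hinc : inc S x true a = mu x a := by simp [inc, ha]
          have hph : phaseStep S true a = false := by simp [phaseStep, ha]
          rw [hinc, hph]
          have hmu : mu x a = 1 ∨ mu x a = -1 := by
            unfold mu
            split_ifs <;> simp
          have hval : ((mu x a : ℤ) : ZMod L).val = 1 ∨ ((mu x a : ℤ) : ZMod L).val + 1 = L := by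
            haveI : Fact (1 < L) := ⟨hL⟩
            rcases hmu with h4 | h4 <;> rw [h4]
            · left
              simpa using ZMod.val_one L
            · right
              have h6 : ((-1 : ℤ) : ZMod L) = -1 := by simp
              rw [h6]
              obtain ⟨n, rfl⟩ : ∃ n, L = n + 1 := ⟨L - 1, by omega⟩
              rw [ZMod.val_neg_one]
          have hne : ((mu x a : ℤ) : ZMod L) ≠ 0 := by
            intro h0
            rw [h0] at hval
            simp only [ZMod.val_zero] at hval
            omega
          have := net_interior hne h2
          rw [abs_le]
          rcases hmu with h4 | h4 <;> rw [h4] at hval this ⊢ <;> rcases hval with h5 | h5 <;>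
            omega
        · have h3 : twoPhase S x L (true, (0 : ZMod L)) a = (true, (0 : ZMod L)) := by
            simp [twoPhase, phaseStep, inc, ha]
          rw [h3] at h2
          have h1 : inc S x true a = 0 := by simp [inc, ha]
          have h4 : phaseStep S true a = true := by simp [phaseStep, ha]
          rw [h1, h4, zero_add]
          exact ih h2
  · have := net_interior hs h
    have h2 := ZMod.val_lt s
    rw [abs_le]
    have h3 : (0 : ℤ) ≤ s.val := by positivity
    omega

end Bound

theorem flatten_replicate_two_mul (π : List α) (k : ℕ) :
    (List.replicate (2 * k) π).flatten = (List.replicate k (π ++ π)).flatten := by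
  induction k with
  | zero => rfl
  | succ k ih =>
    have h : 2 * (k + 1) = 2 * k + 1 + 1 := by ring
    rw [h, List.replicate_succ, List.replicate_succ, List.flatten_cons, List.flatten_cons, ih,
      List.replicate_succ, List.flatten_cons, List.append_assoc]

theorem flip_twice (b : Bool) (π : List α) : flip S b (π ++ π) = b := by
  rw [flip_append]
  by_cases h : flip S b π = b
  · rw [h, h]
  · have h' : flip S b π = !b := by
      revert h
      cases flip S b π <;> cases b <;> simp
    rw [h', flip_not, h']
    simp

theorem net_replicate {ρ : List α} {b : Bool} (h : flip S b ρ = b) (k : ℕ) :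
    net S x b (List.replicate k ρ).flatten = k * net S x b ρ ∧
      flip S b (List.replicate k ρ).flatten = b := by
  induction k with
  | zero => simp
  | succ k ih =>
    rw [List.replicate_succ, List.flatten_cons, net_append, flip_append, h, ih.1, ih.2]
    refine ⟨?_, rfl⟩
    push_cast
    ring

/-- The two-phase automaton is counter-free. -/
theorem twoPhase_cf {L : ℕ} [NeZero L] (hL : 2 ≤ L) :
    CounterFree (twoPhase S x L) (false, (0 : ZMod L)) := by
  rintro π ⟨b, s⟩ hq
  have hzero : net S x b (π ++ π) = 0 := by
    by_contra hne
    have h1 := hq (2 * (L + 1))
    rw [flatten_replicate_two_mul] at h1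
    have h2 := net_bound hL h1
    rw [(net_replicate (x := x) (flip_twice b π) (L + 1)).1, abs_mul] at h2
    have h3 : 1 ≤ |net S x b (π ++ π)| := Int.one_le_abs hne
    have h4 : |((L + 1 : ℕ) : ℤ)| = L + 1 := by
      rw [abs_of_nonneg (by positivity)]
      push_cast
      rfl
    rw [h4] at h2
    nlinarith
  rw [net_append] at hzero
  by_cases h : flip S b π = b
  · rw [h] at hzero
    have h0 : net S x b π = 0 := by omega
    rw [run_twoPhase, h, h0]
    simp
  · have h' : flip S b π = !b := by
      revert h
      cases flip S b π <;> cases b <;> simp
    rw [h'] at hzero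
    have hp := net_parity (S := S) (x := x) b π
    rw [if_neg h, hzero] at hp
    simp at hp

section Count

variable [Finite α]

theorem rec1_net {L : ℕ} (hL : 2 ≤ L) :
    Rec1 (fun w : List α => ((net S x false w : ℤ) : ZMod L)) := by
  haveI : NeZero L := ⟨by omega⟩
  refine ((rec1_run_cf (twoPhase_cf (S := S) (x := x) hL) (false, (0 : ZMod L))).comp
    Prod.snd).congr_fun (fun w => ?_)
  rw [run_twoPhase]
  simp

theorem depN_one (x : α) (w : List α) : depN x (fun _ => 1) w = w.count x := by
  induction w using List.reverseRecOn with
  | nil => rfl
  | append_singleton w a ih =>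
    rw [depN_snoc, ih, List.count_append]
    by_cases h : a = x
    · subst h
      simp
    · simp [h]

end Count

theorem flip_false_iff (w : List α) : flip S false w = true ↔ scnt S (cnt w) % 2 = 1 := by
  induction w using List.reverseRecOn with
  | nil => simp [scnt, cnt]
  | append_singleton w a ih =>
    rw [flip_append, scnt_snoc]
    simp only [flip_cons, flip_nil, phaseStep]
    by_cases ha : a ∈ S
    · simp only [ha, if_true]
      cases h : flip S false w with
      | false =>
        have : ¬ scnt S (cnt w) % 2 = 1 := by
          intro h2
          rw [← ih, h] at h2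
          simp at h2
        simp only [Bool.not_false, true_iff]
        omega
      | true =>
        have : scnt S (cnt w) % 2 = 1 := by
          rw [← ih, h]
        simp only [Bool.not_true, Bool.false_eq_true, false_iff]
        omega
    · simpa only [ha, if_false, Nat.add_zero] using ih

/-- The net change and the number of letters of `S` give twice the number of occurrences of `x`
after an odd number of letters of `S`. -/
theorem net_add_half (hx : x ∈ S) (w : List α) :
    net S x false w + ((scnt S (cnt w) / 2 : ℕ) : ℤ) =
      2 * (depN x (fun c => scnt S c % 2) w : ℤ) := by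
  induction w using List.reverseRecOn with
  | nil => simp [scnt, cnt]
  | append_singleton w a ih =>
    rw [net_append, scnt_snoc, depN_snoc]
    simp only [net_cons, net_nil, add_zero]
    by_cases ha : a ∈ S
    · have hf := flip_false_iff (S := S) w
      cases h : flip S false w with
      | false =>
        have h2 : ¬ scnt S (cnt w) % 2 = 1 := by
          intro h2
          rw [← hf, h] at h2
          simp at h2
        have h3 : inc S x false a = 0 := by simp [inc]
        rw [h3]
        have h4 : (scnt S (cnt w) + if a ∈ S then 1 else 0) / 2 = scnt S (cnt w) / 2 := by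
          simp only [ha, if_true]
          omega
        rw [h4]
        have h5 : (if a = x then scnt S (cnt w) % 2 else 0) = 0 := by
          split_ifs
          · omega
          · rfl
        rw [h5]
        generalize scnt S (cnt w) / 2 = t at *
        push_cast
        linarith
      | true =>
        have h2 : scnt S (cnt w) % 2 = 1 := by
          rw [← hf, h]
        have h3 : inc S x true a = mu x a := by simp [inc, ha]
        rw [h3]
        have h4 : (scnt S (cnt w) + if a ∈ S then 1 else 0) / 2 = scnt S (cnt w) / 2 + 1 := by
          simp only [ha, if_true]
          omega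
        rw [h4]
        by_cases hax : a = x
        · have h5 : mu x a = 1 := by simp [mu, hax]
          rw [h5, if_pos hax, h2]
          generalize scnt S (cnt w) / 2 = t at *
          push_cast
          linarith
        · have h5 : mu x a = -1 := by simp [mu, hax]
          rw [h5, if_neg hax]
          generalize scnt S (cnt w) / 2 = t at *
          push_cast
          linarith
    · have h3 : inc S x (flip S false w) a = 0 := by simp [inc, ha]
      have h4 : a ≠ x := fun h => ha (h ▸ hx)
      rw [h3, if_neg h4]
      simp only [ha, if_false, Nat.add_zero, add_zero]
      exact ih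

section Main

variable [Finite α] {M : ℕ}

theorem half_cast (hM : 0 < M) (t : ℕ) :
    ((((t : ZMod (4 * M)).val / 2 : ℕ)) : ZMod (2 * M)) = ((t / 2 : ℕ) : ZMod (2 * M)) := by
  haveI : NeZero (4 * M) := ⟨by omega⟩
  rw [ZMod.val_natCast]
  have h : t % (2 * (2 * M)) / 2 = t / 2 % (2 * M) := Nat.mod_mul_right_div_self t 2 (2 * M)
  have h4 : 4 * M = 2 * (2 * M) := by ring
  rw [h4, h, ZMod.natCast_mod]

/-- For `x ∈ S`, the number of occurrences of `x` after an odd number of letters of `S`. -/
theorem rec1_odd (hx : x ∈ S) (hM : 0 < M) :
    Rec1 (fun w : List α => (depN x (fun c => scnt S c % 2) w : ZMod M)) := by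
  haveI : NeZero (4 * M) := ⟨by omega⟩
  haveI : NeZero (2 * M) := ⟨by omega⟩
  have h1 := rec1_net (S := S) (x := x) (L := 2 * M) (by omega)
  have h2 := rec1_scnt S (L := 4 * M) (by omega)
  refine ((h1.pair h2).comp (fun q => unscale 2 M (q.1 +
    ((q.2.val / 2 : ℕ) : ZMod (2 * M))))).congr_fun (fun w => ?_)
  simp only
  rw [half_cast hM]
  have h3 := net_add_half (S := S) hx w
  have h4 : ((net S x false w : ℤ) : ZMod (2 * M)) + ((scnt S (cnt w) / 2 : ℕ) : ZMod (2 * M)) =
      ((2 * depN x (fun c => scnt S c % 2) w : ℕ) : ZMod (2 * M)) := by
    generalize scnt S (cnt w) / 2 = t at h3 ⊢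
    have := congrArg (Int.cast : ℤ → ZMod (2 * M)) h3
    push_cast at this ⊢
    exact this
  rw [h4]
  exact unscale_mul (by norm_num) hM _

/-- Periodic deposits modulo two, for an arbitrary set `S` and an arbitrary letter `x`. -/
theorem rec1_dep_two (S : Finset α) (x : α) (hM : 0 < M) (g : ℕ → ℕ)
    (hg : ∀ t, (g (t + 2) : ZMod M) = g t) :
    Rec1 (fun w : List α => (depN x (fun c => g (scnt S c)) w : ZMod M)) := by
  haveI : NeZero M := ⟨hM.ne'⟩
  by_cases hx : x ∈ S
  · have key : ∀ w : List α, (depN x (fun c => g (scnt S c)) w : ZMod M) =
        (g 0 : ZMod M) * (w.count x : ZMod M) +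
          ((g 1 : ZMod M) - g 0) * (depN x (fun c => scnt S c % 2) w : ZMod M) := by
      intro w
      have := depN_linear (Finset.univ : Finset Bool) x M (fun c => g (scnt S c))
        (fun r => if r then (g 1 : ZMod M) - g 0 else (g 0 : ZMod M))
        (fun r c => if r then scnt S c % 2 else 1) (fun c => by
          have h0 := periodic_mod (N := 2) hg (scnt S c)
          rw [← h0]
          simp only [Fintype.sum_bool, if_true, Bool.false_eq_true, if_false]
          rcases Nat.mod_two_eq_zero_or_one (scnt S c) with h | h <;> rw [h] <;> simp) w
      rw [this]
      simp only [Fintype.sum_bool, if_true, Bool.false_eq_true, if_false, depN_one]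
      ring
    refine (((rec1_count hM x).pair (rec1_odd hx hM)).comp
      (fun q => (g 0 : ZMod M) * q.1 + ((g 1 : ZMod M) - g 0) * q.2)).congr_fun (fun w => ?_)
    exact (key w).symm
  · exact rec1_dep S x hx (by norm_num) hM g hg

end Main

end Vale.Agent.Lib.P329
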